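import Mathlib

/-!
The exact alternation lemma behind Lovasz's lemma for `k`-edges.
-/

open Finset

namespace Vale.Agent.Lib.P065

section Alternation

variable {α : Type*} [DecidableEq α]

/-- The level function of the alternation lemma. -/
noncomputable def altL (S : Finset α) (t : α → ℝ) (σ : α → Prop) [DecidablePred σ] (q : α) : ℕ :=
  (S.filter (fun r => σ r ∧ t q < t r)).card + (S.filter (fun r => ¬ σ r ∧ t r < t q)).card

theorem alternation_sum (t : α → ℝ) (σ : α → Prop) [DecidablePred σ] (S : Finset α) :
    Set.InjOn t S → ∀ m : ℕ,
      (∑ q ∈ S, (if σ q then (1:ℤ) else -1) * (if altL S t σ q = m then 1 else 0))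
        = (if m < (S.filter σ).card then 1 else 0)
          - (if m < (S.filter (fun q => ¬ σ q)).card then 1 else 0) := by
  induction S using Finset.induction_on_max_value t with
  | empty => intro _ m; simp
  | insert x S hx hmax ih =>
    intro hinj m
    have hinjS : Set.InjOn t S := hinj.mono (by
      intro y hy
      simp only [Finset.coe_insert, Set.mem_insert_iff, Finset.mem_coe]
      exact Or.inr hy)
    have hlt : ∀ y ∈ S, t y < t x := by
      intro y hy
      refine lt_of_le_of_ne (hmax y hy) ?_
      intro h
      have h2 := hinj (by simp [hy]) (by simp) h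
      exact hx (h2 ▸ hy)
    have hxL1 : (S.filter (fun r => σ r ∧ t x < t r)) = ∅ := by
      apply Finset.filter_eq_empty_iff.2
      intro r hr h
      exact absurd h.2 (not_lt.2 (hmax r hr))
    have hxL2 : (S.filter (fun r => ¬ σ r ∧ t r < t x)) = S.filter (fun r => ¬ σ r) := by
      apply Finset.filter_congr
      intro r hr
      simp [hlt r hr]
    by_cases hσ : σ x
    · have hL : ∀ q ∈ S, altL (insert x S) t σ q = altL S t σ q + 1 := by
        intro q hq
        unfold altL
        rw [Finset.filter_insert, Finset.filter_insert]
        have h1 : σ x ∧ t q < t x := ⟨hσ, hlt q hq⟩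
        have h2 : ¬ (¬ σ x ∧ t x < t q) := fun h => h.1 hσ
        rw [if_pos h1, if_neg h2, Finset.card_insert_of_notMem]
        · ring
        · simp [hx]
      have hLx : altL (insert x S) t σ x = (S.filter (fun q => ¬ σ q)).card := by
        unfold altL
        rw [Finset.filter_insert, Finset.filter_insert]
        simp only [lt_irrefl, and_false, if_false, hxL1, hxL2]
        simp
      have hN1 : ((insert x S).filter σ).card = (S.filter σ).card + 1 := by
        rw [Finset.filter_insert, if_pos hσ, Finset.card_insert_of_notMem]
        simp [hx]
      have hN2 : ((insert x S).filter (fun q => ¬ σ q)).card = (S.filter (fun q => ¬ σ q)).card := by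
        rw [Finset.filter_insert, if_neg (by simpa using hσ)]
      rw [Finset.sum_insert hx, hN1, hN2, hLx, if_pos hσ,
        Finset.sum_congr rfl (fun q hq => by rw [hL q hq])]
      cases m with
      | zero =>
        have h0 : ∀ q ∈ S, (if σ q then (1:ℤ) else -1) * (if altL S t σ q + 1 = 0 then 1 else 0) = 0 := by
          intro q _; simp
        rw [Finset.sum_eq_zero h0]
        by_cases h : (S.filter (fun q => ¬ σ q)).card = 0
        · simp [h]
        · have : 0 < (S.filter (fun q => ¬ σ q)).card := Nat.pos_of_ne_zero h
          simp [this, h]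
      | succ m =>
        have h0 : ∑ q ∈ S, (if σ q then (1:ℤ) else -1) * (if altL S t σ q + 1 = m + 1 then 1 else 0)
            = ∑ q ∈ S, (if σ q then (1:ℤ) else -1) * (if altL S t σ q = m then 1 else 0) := by
          apply Finset.sum_congr rfl
          intro q _
          simp
        rw [h0, ih hinjS m]
        have e1 : (m + 1 < (S.filter σ).card + 1) ↔ (m < (S.filter σ).card) := by omega
        by_cases h1 : m < (S.filter σ).card <;>
        by_cases h2 : (S.filter (fun q => ¬ σ q)).card = m + 1 <;>
        by_cases h3 : m < (S.filter (fun q => ¬ σ q)).card <;>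
        by_cases h4 : m + 1 < (S.filter (fun q => ¬ σ q)).card <;>
        simp only [e1, h1, h2, h3, h4, if_true, if_false] <;>
        omega
    · have hL : ∀ q ∈ S, altL (insert x S) t σ q = altL S t σ q := by
        intro q hq
        unfold altL
        rw [Finset.filter_insert, Finset.filter_insert]
        have h1 : ¬ (σ x ∧ t q < t x) := fun h => hσ h.1
        have h2 : ¬ (¬ σ x ∧ t x < t q) := fun h => absurd h.2 (not_lt.2 (hmax q hq))
        rw [if_neg h1, if_neg h2]
      have hLx : altL (insert x S) t σ x = (S.filter (fun q => ¬ σ q)).card := by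
        unfold altL
        rw [Finset.filter_insert, Finset.filter_insert]
        simp only [lt_irrefl, and_false, if_false, hxL1, hxL2]
        simp
      have hN1 : ((insert x S).filter σ).card = (S.filter σ).card := by
        rw [Finset.filter_insert, if_neg hσ]
      have hN2 : ((insert x S).filter (fun q => ¬ σ q)).card
          = (S.filter (fun q => ¬ σ q)).card + 1 := by
        rw [Finset.filter_insert, if_pos hσ, Finset.card_insert_of_notMem]
        simp [hx]
      rw [Finset.sum_insert hx, hN1, hN2, hLx, if_neg hσ,
        Finset.sum_congr rfl (fun q hq => by rw [hL q hq]), ih hinjS m]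
      by_cases h1 : m < (S.filter σ).card <;>
      by_cases h2 : (S.filter (fun q => ¬ σ q)).card = m <;>
      by_cases h3 : m < (S.filter (fun q => ¬ σ q)).card <;>
      by_cases h4 : m < (S.filter (fun q => ¬ σ q)).card + 1 <;>
      simp only [h1, h2, h3, h4, if_true, if_false] <;>
      omega

/-- Counting form of the alternation lemma. -/
theorem alternation_card (t : α → ℝ) (σ : α → Prop) [DecidablePred σ] (S : Finset α)
    (hinj : Set.InjOn t S) (m : ℕ) :
    ((S.filter (fun q => σ q ∧ altL S t σ q = m)).card : ℤ)
        - (S.filter (fun q => ¬ σ q ∧ altL S t σ q = m)).card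
      = (if m < (S.filter σ).card then 1 else 0)
          - (if m < (S.filter (fun q => ¬ σ q)).card then 1 else 0) := by
  rw [← alternation_sum t σ S hinj m, Finset.card_filter, Finset.card_filter]
  push_cast
  rw [← Finset.sum_sub_distrib]
  apply Finset.sum_congr rfl
  intro q _
  by_cases h1 : σ q <;> by_cases h2 : altL S t σ q = m <;> simp [h1, h2]

end Alternation

end Vale.Agent.Lib.P065
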