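import Vale.Agent.Lib.P065.Frame

/-!
The number of directed `k`-edges of a point set in a square with no small triangle.
-/

open Finset

namespace Vale.Agent.Lib.P065

/-- The first coordinate of the rotated frame. -/
def frameG (a₀ b₀ : ℝ) (p : ℝ × ℝ) : ℝ := a₀ * p.1 + b₀ * p.2

/-- The second coordinate of the rotated frame. -/
def frameH (a₀ b₀ : ℝ) (p : ℝ × ℝ) : ℝ := -b₀ * p.1 + a₀ * p.2

lemma frame_det {a₀ b₀ : ℝ} (hunit : a₀ * a₀ + b₀ * b₀ = 1) (a b r : ℝ × ℝ) :
    det a b r = (frameG a₀ b₀ b - frameG a₀ b₀ a) * (frameH a₀ b₀ r - frameH a₀ b₀ a)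
      - (frameH a₀ b₀ b - frameH a₀ b₀ a) * (frameG a₀ b₀ r - frameG a₀ b₀ a) := by
  unfold det frameG frameH
  linear_combination
    (-((b.1 - a.1) * (r.2 - a.2) - (b.2 - a.2) * (r.1 - a.1))) * hunit

/-- The bound in one rotated frame. -/
theorem frame_bound {P : Finset (ℝ × ℝ)} (hgp : GeneralPosition P) {δ : ℝ}
    (harea : ∀ a ∈ P, ∀ b ∈ P, ∀ c ∈ P, a ≠ b → a ≠ c → b ≠ c → δ ≤ |det a b c|)
    (hδ : 0 < δ) (k : ℕ) {a₀ b₀ : ℝ} (hunit : a₀ * a₀ + b₀ * b₀ = 1) {lo W : ℝ} (hW : 0 < W)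
    (hlo : ∀ p ∈ P, lo ≤ a₀ * p.1 + b₀ * p.2) (hhi : ∀ p ∈ P, a₀ * p.1 + b₀ * p.2 ≤ lo + W) :
    (((flatClass (frameG a₀ b₀) (frameH a₀ b₀) P k).card : ℝ) - 1) ^ 3 * δ
      ≤ 8 * ((k : ℝ) + 1) ^ 2 * W ^ 2 := by
  have hk : (0 : ℝ) < (k : ℝ) + 1 := by positivity
  have hcut := sum_abs_le hgp k a₀ b₀ lo (lo + W) (by linarith) hlo hhi
  have hsum : ∑ e ∈ flatClass (frameG a₀ b₀) (frameH a₀ b₀) P k,
      (frameG a₀ b₀ e.2 - frameG a₀ b₀ e.1) ≤ 2 * ((k : ℝ) + 1) * W := by
    have h1 : ∑ e ∈ flatClass (frameG a₀ b₀) (frameH a₀ b₀) P k,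
        (frameG a₀ b₀ e.2 - frameG a₀ b₀ e.1)
        ≤ ∑ e ∈ kEdges P k, |(a₀ * e.2.1 + b₀ * e.2.2) - (a₀ * e.1.1 + b₀ * e.1.2)| := by
      calc _ ≤ ∑ e ∈ flatClass (frameG a₀ b₀) (frameH a₀ b₀) P k,
              |(a₀ * e.2.1 + b₀ * e.2.2) - (a₀ * e.1.1 + b₀ * e.1.2)| := by
            apply Finset.sum_le_sum
            intro e _
            exact le_abs_self _
        _ ≤ _ := by
            apply Finset.sum_le_sum_of_subset_of_nonneg (Finset.filter_subset _ _)
            intro e _ _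
            exact abs_nonneg _
    have h2 : lo + W - lo = W := by ring
    rw [h2] at hcut
    linarith
  have hA : 0 < 2 * ((k : ℝ) + 1) * W := by positivity
  have := flatClass_bound (frame_det hunit) hgp harea hδ hA hsum
  calc _ ≤ _ := this
    _ = _ := by ring

lemma mem_flatClass {g h : ℝ × ℝ → ℝ} {P : Finset (ℝ × ℝ)} {k : ℕ} {e : (ℝ × ℝ) × (ℝ × ℝ)} :
    e ∈ flatClass g h P k ↔ e ∈ kEdges P k ∧ g e.1 < g e.2 ∧ |h e.2 - h e.1| ≤ g e.2 - g e.1 :=
  Finset.mem_filter

/-- Every nonzero vector lies in the flat class of one of the four axis frames. -/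
lemma kEdges_subset_union (P : Finset (ℝ × ℝ)) (k : ℕ) :
    kEdges P k ⊆ flatClass (frameG 1 0) (frameH 1 0) P k
      ∪ flatClass (frameG 0 1) (frameH 0 1) P k
      ∪ flatClass (frameG (-1) 0) (frameH (-1) 0) P k
      ∪ flatClass (frameG 0 (-1)) (frameH 0 (-1)) P k := by
  intro e he
  have hne : e.1 ≠ e.2 := (Finset.mem_offDiag.1 (Finset.mem_filter.1 he).1).2.2
  have hdx : e.2.1 - e.1.1 ≠ 0 ∨ e.2.2 - e.1.2 ≠ 0 := by
    by_contra hcon
    push Not at hcon
    apply hne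
    exact Prod.ext (by linarith [hcon.1]) (by linarith [hcon.2])
  simp only [Finset.mem_union, mem_flatClass, frameG, frameH]
  set dx := e.2.1 - e.1.1 with hdxdef
  set dy := e.2.2 - e.1.2 with hdydef
  -- four cases according to the dominant coordinate
  by_cases h1 : |dy| ≤ |dx|
  · have hdx0 : dx ≠ 0 := by
      intro h0
      rw [h0, abs_zero] at h1
      have : dy = 0 := abs_nonpos_iff.1 h1
      rcases hdx with h | h
      · exact h h0
      · exact h this
    rcases lt_or_gt_of_ne hdx0 with hneg | hpos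
    · -- leftward
      left; right
      refine ⟨he, ?_, ?_⟩
      · nlinarith
      · rw [abs_of_neg hneg] at h1
        have e1 : (-0 : ℝ) * e.2.1 + -1 * e.2.2 - (-0 * e.1.1 + -1 * e.1.2) = -dy := by
          rw [hdydef]; ring
        have e2 : -1 * e.2.1 + 0 * e.2.2 - (-1 * e.1.1 + 0 * e.1.2) = -dx := by
          rw [hdxdef]; ring
        rw [e1, e2, abs_neg]
        exact h1
    · -- rightward
      left; left; left
      refine ⟨he, ?_, ?_⟩
      · nlinarith
      · rw [abs_of_pos hpos] at h1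
        have e1 : (-0 : ℝ) * e.2.1 + 1 * e.2.2 - (-0 * e.1.1 + 1 * e.1.2) = dy := by
          rw [hdydef]; ring
        have e2 : 1 * e.2.1 + 0 * e.2.2 - (1 * e.1.1 + 0 * e.1.2) = dx := by
          rw [hdxdef]; ring
        rw [e1, e2]
        exact h1
  · have h2 : |dx| < |dy| := not_le.1 h1
    have hdy0 : dy ≠ 0 := by
      intro h0
      rw [h0, abs_zero] at h2
      exact absurd h2 (not_lt.2 (abs_nonneg _))
    rcases lt_or_gt_of_ne hdy0 with hneg | hpos
    · -- downward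
      right
      refine ⟨he, ?_, ?_⟩
      · nlinarith
      · rw [abs_of_neg hneg] at h2
        have e1 : (- -1 : ℝ) * e.2.1 + 0 * e.2.2 - (- -1 * e.1.1 + 0 * e.1.2) = dx := by
          rw [hdxdef]; ring
        have e2 : 0 * e.2.1 + -1 * e.2.2 - (0 * e.1.1 + -1 * e.1.2) = -dy := by
          rw [hdydef]; ring
        rw [e1, e2]
        exact h2.le
    · -- upward
      left; left; right
      refine ⟨he, ?_, ?_⟩
      · nlinarith
      · rw [abs_of_pos hpos] at h2
        have e1 : (-1 : ℝ) * e.2.1 + 0 * e.2.2 - (-1 * e.1.1 + 0 * e.1.2) = -dx := by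
          rw [hdxdef]; ring
        have e2 : 0 * e.2.1 + 1 * e.2.2 - (0 * e.1.1 + 1 * e.1.2) = dy := by
          rw [hdydef]; ring
        rw [e1, e2, abs_neg]
        exact h2.le

/-- Cube comparison used to combine the four frames. -/
lemma combine_four {m r₁ r₂ r₃ r₄ δ B : ℝ} (hδ : 0 < δ)
    (hm : m - 4 ≤ r₁ + r₂ + r₃ + r₄)
    (h1 : r₁ ^ 3 * δ ≤ B) (h2 : r₂ ^ 3 * δ ≤ B) (h3 : r₃ ^ 3 * δ ≤ B) (h4 : r₄ ^ 3 * δ ≤ B) :
    (m - 4) ^ 3 * δ ≤ 64 * B := by
  by_contra hcon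
  have hlt : 64 * B < (m - 4) ^ 3 * δ := not_le.1 hcon
  set y := (m - 4) / 4 with hy
  have hy3 : (m - 4) ^ 3 = 64 * y ^ 3 := by
    rw [hy]
    ring
  rw [hy3] at hlt
  have hB' : B < y ^ 3 * δ := by nlinarith
  have key : ∀ r : ℝ, r ^ 3 * δ ≤ B → r < y := by
    intro r hr
    have h5 : r ^ 3 < y ^ 3 := by
      have : r ^ 3 * δ < y ^ 3 * δ := lt_of_le_of_lt hr hB'
      exact lt_of_mul_lt_mul_right this hδ.le
    by_contra hge
    have h6 : y ≤ r := not_lt.1 hge
    have h7 : y ^ 3 ≤ r ^ 3 := by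
      have : Odd 3 := by decide
      exact this.strictMono_pow.monotone h6
    linarith
  have h5 := key _ h1
  have h6 := key _ h2
  have h7 := key _ h3
  have h8 := key _ h4
  have h9 : m - 4 = 4 * y := by
    rw [hy]
    ring
  linarith

/-- Main bound: the number of directed `k`-edges of a set in a square of side `W` with all doubled
triangle areas at least `δ`. -/
theorem kEdges_area_bound {P : Finset (ℝ × ℝ)} {δ W : ℝ} (hδ : 0 < δ) (hW : 0 < W)
    (hbox : ∀ p ∈ P, 0 ≤ p.1 ∧ p.1 ≤ W ∧ 0 ≤ p.2 ∧ p.2 ≤ W)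
    (harea : ∀ a ∈ P, ∀ b ∈ P, ∀ c ∈ P, a ≠ b → a ≠ c → b ≠ c → δ ≤ |det a b c|) (k : ℕ) :
    (((kEdges P k).card : ℝ) - 4) ^ 3 * δ ≤ 512 * ((k : ℝ) + 1) ^ 2 * W ^ 2 := by
  have hgp : GeneralPosition P := by
    intro a ha b hb c hc hab hac hbc h0
    have := harea a ha b hb c hc hab hac hbc
    rw [h0, abs_zero] at this
    linarith
  have f1 := frame_bound hgp harea hδ k (a₀ := 1) (b₀ := 0) (by norm_num) (lo := 0) hW
    (by intro p hp; have := (hbox p hp).1; linarith)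
    (by intro p hp; have := (hbox p hp).2.1; linarith)
  have f2 := frame_bound hgp harea hδ k (a₀ := 0) (b₀ := 1) (by norm_num) (lo := 0) hW
    (by intro p hp; have := (hbox p hp).2.2.1; linarith)
    (by intro p hp; have := (hbox p hp).2.2.2; linarith)
  have f3 := frame_bound hgp harea hδ k (a₀ := -1) (b₀ := 0) (by norm_num) (lo := -W) hW
    (by intro p hp; have := (hbox p hp).2.1; linarith)
    (by intro p hp; have := (hbox p hp).1; linarith)
  have f4 := frame_bound hgp harea hδ k (a₀ := 0) (b₀ := -1) (by norm_num) (lo := -W) hW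
    (by intro p hp; have := (hbox p hp).2.2.2; linarith)
    (by intro p hp; have := (hbox p hp).2.2.1; linarith)
  have hcard : (kEdges P k).card ≤
      (flatClass (frameG 1 0) (frameH 1 0) P k).card
      + (flatClass (frameG 0 1) (frameH 0 1) P k).card
      + (flatClass (frameG (-1) 0) (frameH (-1) 0) P k).card
      + (flatClass (frameG 0 (-1)) (frameH 0 (-1)) P k).card := by
    refine le_trans (Finset.card_le_card (kEdges_subset_union P k)) ?_
    refine le_trans (Finset.card_union_le _ _) ?_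
    refine Nat.add_le_add_right ?_ _
    refine le_trans (Finset.card_union_le _ _) ?_
    refine Nat.add_le_add_right ?_ _
    exact Finset.card_union_le _ _
  have hcardR : ((kEdges P k).card : ℝ) ≤
      ((flatClass (frameG 1 0) (frameH 1 0) P k).card : ℝ)
      + ((flatClass (frameG 0 1) (frameH 0 1) P k).card : ℝ)
      + ((flatClass (frameG (-1) 0) (frameH (-1) 0) P k).card : ℝ)
      + ((flatClass (frameG 0 (-1)) (frameH 0 (-1)) P k).card : ℝ) := by
    exact_mod_cast hcard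
  have := combine_four hδ (m := ((kEdges P k).card : ℝ)) (by linarith) f1 f2 f3 f4
  calc _ ≤ _ := this
    _ = _ := by ring

/-- The bound in one rotated frame, with small triangles allowed. -/
theorem frame_bound_bad {P : Finset (ℝ × ℝ)} (hgp : GeneralPosition P) {Δ : ℝ}
    (hΔ : 0 < Δ) (k : ℕ) {a₀ b₀ : ℝ} (hunit : a₀ * a₀ + b₀ * b₀ = 1) {lo W : ℝ} (hW : 0 < W)
    (hlo : ∀ p ∈ P, lo ≤ a₀ * p.1 + b₀ * p.2) (hhi : ∀ p ∈ P, a₀ * p.1 + b₀ * p.2 ≤ lo + W) :
    (((flatClass (frameG a₀ b₀) (frameH a₀ b₀) P k).card : ℝ) - 1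
        - ((smallTriples P Δ).card : ℝ)) ^ 3 * (2 * Δ)
      ≤ 8 * ((k : ℝ) + 1) ^ 2 * W ^ 2 := by
  have hk : (0 : ℝ) < (k : ℝ) + 1 := by positivity
  have hcut := sum_abs_le hgp k a₀ b₀ lo (lo + W) (by linarith) hlo hhi
  have hsum : ∑ e ∈ flatClass (frameG a₀ b₀) (frameH a₀ b₀) P k,
      (frameG a₀ b₀ e.2 - frameG a₀ b₀ e.1) ≤ 2 * ((k : ℝ) + 1) * W := by
    have h1 : ∑ e ∈ flatClass (frameG a₀ b₀) (frameH a₀ b₀) P k,
        (frameG a₀ b₀ e.2 - frameG a₀ b₀ e.1)
        ≤ ∑ e ∈ kEdges P k, |(a₀ * e.2.1 + b₀ * e.2.2) - (a₀ * e.1.1 + b₀ * e.1.2)| := by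
      calc _ ≤ ∑ e ∈ flatClass (frameG a₀ b₀) (frameH a₀ b₀) P k,
              |(a₀ * e.2.1 + b₀ * e.2.2) - (a₀ * e.1.1 + b₀ * e.1.2)| := by
            apply Finset.sum_le_sum
            intro e _
            exact le_abs_self _
        _ ≤ _ := by
            apply Finset.sum_le_sum_of_subset_of_nonneg (Finset.filter_subset _ _)
            intro e _ _
            exact abs_nonneg _
    have h2 : lo + W - lo = W := by ring
    rw [h2] at hcut
    linarith
  have hA : 0 < 2 * ((k : ℝ) + 1) * W := by positivity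
  have := flatClass_bound_bad (frame_det hunit) hgp hΔ hA hsum
  calc _ ≤ _ := this
    _ = _ := by ring

/-- Main bound with small triangles allowed. -/
theorem kEdges_area_bound_bad {P : Finset (ℝ × ℝ)} (hgp : GeneralPosition P) {Δ W : ℝ}
    (hΔ : 0 < Δ) (hW : 0 < W) (hbox : ∀ p ∈ P, 0 ≤ p.1 ∧ p.1 ≤ W ∧ 0 ≤ p.2 ∧ p.2 ≤ W) (k : ℕ) :
    (((kEdges P k).card : ℝ) - 4 * ((smallTriples P Δ).card : ℝ) - 4) ^ 3 * (2 * Δ)
      ≤ 512 * ((k : ℝ) + 1) ^ 2 * W ^ 2 := by
  have f1 := frame_bound_bad hgp hΔ k (a₀ := 1) (b₀ := 0) (by norm_num) (lo := 0) hW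
    (by intro p hp; have := (hbox p hp).1; linarith)
    (by intro p hp; have := (hbox p hp).2.1; linarith)
  have f2 := frame_bound_bad hgp hΔ k (a₀ := 0) (b₀ := 1) (by norm_num) (lo := 0) hW
    (by intro p hp; have := (hbox p hp).2.2.1; linarith)
    (by intro p hp; have := (hbox p hp).2.2.2; linarith)
  have f3 := frame_bound_bad hgp hΔ k (a₀ := -1) (b₀ := 0) (by norm_num) (lo := -W) hW
    (by intro p hp; have := (hbox p hp).2.1; linarith)
    (by intro p hp; have := (hbox p hp).1; linarith)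
  have f4 := frame_bound_bad hgp hΔ k (a₀ := 0) (b₀ := -1) (by norm_num) (lo := -W) hW
    (by intro p hp; have := (hbox p hp).2.2.2; linarith)
    (by intro p hp; have := (hbox p hp).2.2.1; linarith)
  have hcard : (kEdges P k).card ≤
      (flatClass (frameG 1 0) (frameH 1 0) P k).card
      + (flatClass (frameG 0 1) (frameH 0 1) P k).card
      + (flatClass (frameG (-1) 0) (frameH (-1) 0) P k).card
      + (flatClass (frameG 0 (-1)) (frameH 0 (-1)) P k).card := by
    refine le_trans (Finset.card_le_card (kEdges_subset_union P k)) ?_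
    refine le_trans (Finset.card_union_le _ _) ?_
    refine Nat.add_le_add_right ?_ _
    refine le_trans (Finset.card_union_le _ _) ?_
    refine Nat.add_le_add_right ?_ _
    exact Finset.card_union_le _ _
  have hcardR : ((kEdges P k).card : ℝ) ≤
      ((flatClass (frameG 1 0) (frameH 1 0) P k).card : ℝ)
      + ((flatClass (frameG 0 1) (frameH 0 1) P k).card : ℝ)
      + ((flatClass (frameG (-1) 0) (frameH (-1) 0) P k).card : ℝ)
      + ((flatClass (frameG 0 (-1)) (frameH 0 (-1)) P k).card : ℝ) := by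
    exact_mod_cast hcard
  have := combine_four (by linarith : 0 < 2 * Δ)
    (m := ((kEdges P k).card : ℝ) - 4 * ((smallTriples P Δ).card : ℝ)) (by linarith) f1 f2 f3 f4
  calc _ ≤ _ := this
    _ = _ := by ring

end Vale.Agent.Lib.P065
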