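import Vale.Agent.Lib.P065.AreaBound

/-!
Bounds for `k`-sets and halving lines of sets without small triangles.
-/

open Finset

namespace Vale.Agent.Lib.P065

lemma cube_sub_mono {x y c d : ℝ} (hxy : x ≤ y) (hd : 0 < d) :
    (x - c) ^ 3 * d ≤ (y - c) ^ 3 * d := by
  apply mul_le_mul_of_nonneg_right _ hd.le
  have : Odd 3 := by decide
  exact this.strictMono_pow.monotone (by linarith)

/-- The general form of the bound, in a square of side `W`, with lower bound `δ` for the doubled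
area of every triangle. -/
theorem area_main {P : Finset (ℝ × ℝ)} {δ W : ℝ} (hδ : 0 < δ) (hW : 0 < W)
    (hbox : ∀ p ∈ P, 0 ≤ p.1 ∧ p.1 ≤ W ∧ 0 ≤ p.2 ∧ p.2 ≤ W)
    (harea : ∀ a ∈ P, ∀ b ∈ P, ∀ c ∈ P, a ≠ b → a ≠ c → b ≠ c → δ ≤ |det a b c|) :
    (∀ k, 1 ≤ k → k < P.card →
      (((kSets P k).card : ℝ) - 4) ^ 3 * δ ≤ 512 * (k : ℝ) ^ 2 * W ^ 2) ∧
    (((halvingLines P).card : ℝ) - 2) ^ 3 * δ ≤ 16 * (P.card : ℝ) ^ 2 * W ^ 2 := by
  have hgp : GeneralPosition P := by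
    intro a ha b hb c hc hab hac hbc h0
    have := harea a ha b hb c hc hab hac hbc
    rw [h0, abs_zero] at this
    linarith
  constructor
  · intro k hk hk'
    have h1 := kSets_card_le hgp hk hk'
    have h2 := kEdges_area_bound hδ hW hbox harea (k - 1)
    have h3 : ((k - 1 : ℕ) : ℝ) + 1 = (k : ℝ) := by
      have : k - 1 + 1 = k := Nat.sub_add_cancel hk
      exact_mod_cast this
    rw [h3] at h2
    have h4 : ((kSets P k).card : ℝ) ≤ ((kEdges P (k - 1)).card : ℝ) := by exact_mod_cast h1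
    exact le_trans (cube_sub_mono h4 hδ) h2
  · by_cases hn : ∃ k, 2 * k + 2 = P.card
    · obtain ⟨k, hk⟩ := hn
      have h1 := halvingLines_card_le P hk
      have h2 := kEdges_area_bound hδ hW hbox harea k
      have h3 : (P.card : ℝ) = 2 * ((k : ℝ) + 1) := by
        rw [← hk]
        push_cast
        ring
      have h4 : 2 * ((halvingLines P).card : ℝ) ≤ ((kEdges P k).card : ℝ) := by exact_mod_cast h1
      have h5 := le_trans (cube_sub_mono h4 hδ) h2
      rw [h3]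
      have h6 : (2 * ((halvingLines P).card : ℝ) - 4) ^ 3
          = 8 * (((halvingLines P).card : ℝ) - 2) ^ 3 := by ring
      rw [h6] at h5
      nlinarith
    · have hempty : halvingLines P = ∅ := by
        unfold halvingLines
        rw [Finset.image_eq_empty, Finset.filter_eq_empty_iff]
        intro e _ h
        exact hn ⟨_, h.1⟩
      rw [hempty]
      have h1 : ((0 : ℕ) : ℝ) - 2 = -2 := by norm_num
      simp only [Finset.card_empty]
      rw [h1]
      have h2 : (-2 : ℝ) ^ 3 * δ ≤ 0 := by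
        have : (-2 : ℝ) ^ 3 = -8 := by norm_num
        rw [this]
        linarith
      have h3 : 0 ≤ 16 * (P.card : ℝ) ^ 2 * W ^ 2 := by positivity
      linarith

/-- The form for subsets of the unit square, in terms of a lower bound for the triangle areas. -/
theorem square_main (P : Finset (ℝ × ℝ))
    (hsq : ∀ p ∈ P, 0 ≤ p.1 ∧ p.1 ≤ 1 ∧ 0 ≤ p.2 ∧ p.2 ≤ 1) (Δ : ℝ) (hΔ : 0 < Δ)
    (harea : ∀ a ∈ P, ∀ b ∈ P, ∀ c ∈ P, a ≠ b → a ≠ c → b ≠ c → Δ ≤ triangleArea a b c) :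
    (∀ k, 1 ≤ k → k < P.card →
      (((kSets P k).card : ℝ) - 4) ^ 3 * Δ ≤ 256 * (k : ℝ) ^ 2) ∧
    (((halvingLines P).card : ℝ) - 2) ^ 3 * Δ ≤ 8 * (P.card : ℝ) ^ 2 := by
  have h := area_main (P := P) (δ := 2 * Δ) (W := 1) (by linarith) (by norm_num) hsq (by
    intro a ha b hb c hc hab hac hbc
    have := harea a ha b hb c hc hab hac hbc
    unfold triangleArea at this
    linarith)
  constructor
  · intro k hk hk'
    have := h.1 k hk hk'
    nlinarith
  · have := h.2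
    nlinarith

/-- The form for subsets of an integer grid. -/
theorem lattice_main (P : Finset (ℝ × ℝ)) (N : ℕ) (hN : 0 < N)
    (hint : ∀ p ∈ P, ∃ x y : ℤ, p = ((x : ℝ), (y : ℝ)) ∧ 0 ≤ x ∧ x ≤ N ∧ 0 ≤ y ∧ y ≤ N)
    (hgp : GeneralPosition P) :
    (∀ k, 1 ≤ k → k < P.card →
      (((kSets P k).card : ℝ) - 4) ^ 3 ≤ 512 * (k : ℝ) ^ 2 * (N : ℝ) ^ 2) ∧
    (((halvingLines P).card : ℝ) - 2) ^ 3 ≤ 16 * (P.card : ℝ) ^ 2 * (N : ℝ) ^ 2 := by
  have hN' : (0 : ℝ) < (N : ℝ) := by exact_mod_cast hN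
  have h := area_main (P := P) (δ := 1) (W := (N : ℝ)) (by norm_num) hN' (by
    intro p hp
    obtain ⟨x, y, rfl, h1, h2, h3, h4⟩ := hint p hp
    refine ⟨?_, ?_, ?_, ?_⟩
    · show (0 : ℝ) ≤ (x : ℝ)
      exact_mod_cast h1
    · show (x : ℝ) ≤ (N : ℝ)
      exact_mod_cast h2
    · show (0 : ℝ) ≤ (y : ℝ)
      exact_mod_cast h3
    · show (y : ℝ) ≤ (N : ℝ)
      exact_mod_cast h4) (by
    intro a ha b hb c hc hab hac hbc
    have hne := hgp a ha b hb c hc hab hac hbc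
    obtain ⟨x₁, y₁, rfl, -⟩ := hint a ha
    obtain ⟨x₂, y₂, rfl, -⟩ := hint b hb
    obtain ⟨x₃, y₃, rfl, -⟩ := hint c hc
    have hz : det ((x₁ : ℝ), (y₁ : ℝ)) ((x₂ : ℝ), (y₂ : ℝ)) ((x₃ : ℝ), (y₃ : ℝ))
        = (((x₂ - x₁) * (y₃ - y₁) - (y₂ - y₁) * (x₃ - x₁) : ℤ) : ℝ) := by
      unfold det
      push_cast
      ring
    rw [hz] at hne ⊢
    have hz0 : (x₂ - x₁) * (y₃ - y₁) - (y₂ - y₁) * (x₃ - x₁) ≠ 0 := by
      intro h0
      apply hne
      rw [h0]
      simp
    have : (1 : ℤ) ≤ |(x₂ - x₁) * (y₃ - y₁) - (y₂ - y₁) * (x₃ - x₁)| := Int.one_le_abs hz0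
    have h2 : ((1 : ℤ) : ℝ) ≤ ((|(x₂ - x₁) * (y₃ - y₁) - (y₂ - y₁) * (x₃ - x₁)| : ℤ) : ℝ) := by
      exact_mod_cast this
    push_cast at h2 ⊢
    exact h2)
  constructor
  · intro k hk hk'
    have := h.1 k hk hk'
    linarith
  · have := h.2
    linarith

/-- The bound for all point sets in the unit square, in terms of the number of small triangles. -/
theorem square_main_bad (P : Finset (ℝ × ℝ)) (hgp : GeneralPosition P)
    (hsq : ∀ p ∈ P, 0 ≤ p.1 ∧ p.1 ≤ 1 ∧ 0 ≤ p.2 ∧ p.2 ≤ 1) (Δ : ℝ) (hΔ : 0 < Δ) :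
    (∀ k, 1 ≤ k → k < P.card →
      (((kSets P k).card : ℝ) - 4 * ((smallTriples P Δ).card : ℝ) - 4) ^ 3 * Δ
        ≤ 256 * (k : ℝ) ^ 2) ∧
    (((halvingLines P).card : ℝ) - 2 * ((smallTriples P Δ).card : ℝ) - 2) ^ 3 * Δ
        ≤ 8 * (P.card : ℝ) ^ 2 := by
  have hδ : 0 < 2 * Δ := by linarith
  constructor
  · intro k hk hk'
    have h1 := kSets_card_le hgp hk hk'
    have h2 := kEdges_area_bound_bad hgp hΔ (W := 1) (by norm_num) hsq (k - 1)
    have h3 : ((k - 1 : ℕ) : ℝ) + 1 = (k : ℝ) := by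
      have : k - 1 + 1 = k := Nat.sub_add_cancel hk
      exact_mod_cast this
    rw [h3] at h2
    have h4 : ((kSets P k).card : ℝ) ≤ ((kEdges P (k - 1)).card : ℝ) := by exact_mod_cast h1
    have h5 := le_trans (cube_sub_mono (c := 4) (x := ((kSets P k).card : ℝ)
      - 4 * ((smallTriples P Δ).card : ℝ)) (y := ((kEdges P (k - 1)).card : ℝ)
      - 4 * ((smallTriples P Δ).card : ℝ)) (by linarith) hδ) h2
    nlinarith
  · by_cases hn : ∃ k, 2 * k + 2 = P.card
    · obtain ⟨k, hk⟩ := hn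
      have h1 := halvingLines_card_le P hk
      have h2 := kEdges_area_bound_bad hgp hΔ (W := 1) (by norm_num) hsq k
      have h3 : (P.card : ℝ) = 2 * ((k : ℝ) + 1) := by
        rw [← hk]
        push_cast
        ring
      have h4 : 2 * ((halvingLines P).card : ℝ) ≤ ((kEdges P k).card : ℝ) := by exact_mod_cast h1
      have h5 := le_trans (cube_sub_mono (c := 4) (x := 2 * ((halvingLines P).card : ℝ)
      - 4 * ((smallTriples P Δ).card : ℝ)) (y := ((kEdges P k).card : ℝ)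
      - 4 * ((smallTriples P Δ).card : ℝ)) (by linarith) hδ) h2
      rw [h3]
      have h6 : (2 * ((halvingLines P).card : ℝ) - 4 * ((smallTriples P Δ).card : ℝ) - 4) ^ 3
          = 8 * (((halvingLines P).card : ℝ) - 2 * ((smallTriples P Δ).card : ℝ) - 2) ^ 3 := by
        ring
      rw [h6] at h5
      nlinarith
    · have hempty : halvingLines P = ∅ := by
        unfold halvingLines
        rw [Finset.image_eq_empty, Finset.filter_eq_empty_iff]
        intro e _ h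
        exact hn ⟨_, h.1⟩
      rw [hempty]
      simp only [Finset.card_empty, Nat.cast_zero, zero_sub]
      have hT : (0 : ℝ) ≤ ((smallTriples P Δ).card : ℝ) := Nat.cast_nonneg _
      have h2 : (-(2 * ((smallTriples P Δ).card : ℝ)) - 2) ^ 3 * Δ ≤ 0 := by
        apply mul_nonpos_of_nonpos_of_nonneg _ hΔ.le
        have h3 : (-(2 * ((smallTriples P Δ).card : ℝ)) - 2) ^ 3
            = (-(2 * ((smallTriples P Δ).card : ℝ)) - 2)
              * (-(2 * ((smallTriples P Δ).card : ℝ)) - 2) ^ 2 := by ring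
        rw [h3]
        exact mul_nonpos_of_nonpos_of_nonneg (by linarith) (sq_nonneg _)
      have h3 : 0 ≤ 8 * (P.card : ℝ) ^ 2 := by positivity
      linarith

end Vale.Agent.Lib.P065
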