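import Vale.Agent.Lib.P065.KSets

/-!
Total variation of a linear functional along the directed `k`-edges.
-/

open Finset

namespace Vale.Agent.Lib.P065

section DoubleCount

variable {α : Type*} [DecidableEq α]

/-- Double counting over ordered pairs of distinct elements. -/
lemma double_count (P : Finset α) (E : α → α → Prop) [DecidableRel E] (w : α → ℝ) (τ : α → α → ℝ) :
    ∑ v ∈ P, w v * (∑ q ∈ P.erase v,
      ((if E v q then (1:ℝ) else 0) + (if E q v then 1 else 0)) * τ v q)
    = ∑ e ∈ P.offDiag, (if E e.1 e.2 then w e.1 * τ e.1 e.2 + w e.2 * τ e.2 e.1 else 0) := by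
  have hmemOff : ∀ p : α × α, p ∈ P.offDiag ↔ p.1 ∈ P ∧ p.2 ∈ P.erase p.1 := by
    intro p
    simp only [Finset.mem_offDiag, Finset.mem_erase]
    constructor
    · rintro ⟨h1, h2, h3⟩
      exact ⟨h1, Ne.symm h3, h2⟩
    · rintro ⟨h1, h3, h2⟩
      exact ⟨h1, h2, Ne.symm h3⟩
  have hmemOff' : ∀ p : α × α, p ∈ P.offDiag ↔ p.2 ∈ P ∧ p.1 ∈ P.erase p.2 := by
    intro p
    simp only [Finset.mem_offDiag, Finset.mem_erase]
    constructor
    · rintro ⟨h1, h2, h3⟩
      exact ⟨h2, h3, h1⟩
    · rintro ⟨h2, h3, h1⟩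
      exact ⟨h1, h2, h3⟩
  have e1 : ∑ e ∈ P.offDiag, (if E e.1 e.2 then w e.1 * τ e.1 e.2 + w e.2 * τ e.2 e.1 else 0)
      = ∑ e ∈ P.offDiag, (if E e.1 e.2 then w e.1 * τ e.1 e.2 else 0)
        + ∑ e ∈ P.offDiag, (if E e.1 e.2 then w e.2 * τ e.2 e.1 else 0) := by
    rw [← Finset.sum_add_distrib]
    apply Finset.sum_congr rfl
    intro e _
    split_ifs <;> ring
  rw [e1, Finset.sum_finset_product P.offDiag P (fun a => P.erase a) hmemOff
      (f := fun e => if E e.1 e.2 then w e.1 * τ e.1 e.2 else 0),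
    Finset.sum_finset_product_right P.offDiag P (fun a => P.erase a) hmemOff'
      (f := fun e => if E e.1 e.2 then w e.2 * τ e.2 e.1 else 0),
    ← Finset.sum_add_distrib]
  apply Finset.sum_congr rfl
  intro v _
  rw [← Finset.sum_add_distrib, Finset.mul_sum]
  apply Finset.sum_congr rfl
  intro q _
  simp only
  by_cases h3 : E v q <;> by_cases h4 : E q v <;> simp [h3, h4]
  ring

end DoubleCount

/-- Total variation of a linear functional along the directed `k`-edges. -/
theorem sum_abs_le {P : Finset (ℝ × ℝ)} (hgp : GeneralPosition P) (k : ℕ) (a₀ b₀ lo hi : ℝ)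
    (hr : 0 ≤ hi - lo) (hlo : ∀ p ∈ P, lo ≤ a₀ * p.1 + b₀ * p.2) (hhi : ∀ p ∈ P, a₀ * p.1 + b₀ * p.2 ≤ hi) :
    ∑ e ∈ kEdges P k, |(a₀ * e.2.1 + b₀ * e.2.2) - (a₀ * e.1.1 + b₀ * e.1.2)|
      ≤ 2 * ((k : ℝ) + 1) * (hi - lo) := by
  classical
  set g : ℝ × ℝ → ℝ := fun p => a₀ * p.1 + b₀ * p.2 with hg
  set tr : (ℝ × ℝ) × (ℝ × ℝ) → ℝ × ℝ := fun e => (e.2.1 - e.1.1, e.2.2 - e.1.2) with htr
  obtain ⟨α, β, h1, h2⟩ := exists_tieFree
    ((P.offDiag.image tr).filter (fun u => 0 < a₀ * u.1 + b₀ * u.2)) (P.offDiag.image tr)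
    (by
      intro u hu
      obtain ⟨e, he, rfl⟩ := Finset.mem_image.1 hu
      have he' := Finset.mem_offDiag.1 he
      intro h0
      apply he'.2.2
      have e1 : e.2.1 - e.1.1 = 0 := congrArg Prod.fst h0
      have e2 : e.2.2 - e.1.2 = 0 := congrArg Prod.snd h0
      exact Prod.ext (by linarith) (by linarith)) a₀ b₀
    (by
      intro u hu
      exact (Finset.mem_filter.1 hu).2)
  have hX : ∀ v ∈ P, ∀ q ∈ P, q ≠ v → xCoord v α β q ≠ 0 := by
    intro v hv q hq hqv
    exact h1 (tr (v, q)) (Finset.mem_image_of_mem _ (Finset.mem_offDiag.2 ⟨hv, hq, Ne.symm hqv⟩))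
  have hpos : ∀ v ∈ P, ∀ q ∈ P, g v < g q → 0 < xCoord v α β q := by
    intro v hv q hq hlt
    have hne : q ≠ v := by
      rintro rfl
      exact lt_irrefl _ hlt
    refine h2 (tr (v, q)) (Finset.mem_filter.2 ⟨Finset.mem_image_of_mem _
      (Finset.mem_offDiag.2 ⟨hv, hq, Ne.symm hne⟩), ?_⟩)
    simp only [htr]
    simp only [hg] at hlt
    nlinarith
  have hanti : ∀ v q : ℝ × ℝ, xCoord q α β v = - xCoord v α β q := by
    intro v q
    unfold xCoord
    ring
  -- the weights
  set w : ℝ × ℝ → ℝ := fun v => hi - g v with hw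
  -- the negative side counting function
  set Nneg : ℝ × ℝ → ℕ := fun v => ((P.erase v).filter (fun q => ¬ 0 < xCoord v α β q)).card
    with hNneg
  -- the real form of the signed degree
  set ε : ℝ × ℝ → ℝ := fun v => ∑ q ∈ P.erase v,
      ((if (leftOf P v q).card = k then (1:ℝ) else 0) + (if (leftOf P q v).card = k then 1 else 0))
        * ((sgnAt v α β q : ℤ) : ℝ) with hε
  have hεcast : ∀ v, ε v = ((∑ q ∈ P.erase v,
      ((if (leftOf P v q).card = k then (1:ℤ) else 0) + (if (leftOf P q v).card = k then 1 else 0))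
        * sgnAt v α β q : ℤ) : ℝ) := by
    intro v
    simp only [hε]
    push_cast
    rfl
  have hεtwo : ∀ v ∈ P, ε v ≤ 2 := by
    intro v hv
    rw [hεcast]
    exact_mod_cast signed_degree_le_two v α β hgp hv (hX v hv) k
  have hεzero : ∀ v ∈ P, k < Nneg v → ε v ≤ 0 := by
    intro v hv hk
    rw [hεcast]
    exact_mod_cast signed_degree_le_zero v α β hgp hv (hX v hv) k hk
  have hwnn : ∀ v ∈ P, 0 ≤ w v := by
    intro v hv
    simp only [hw]
    linarith [hhi v hv]
  have hwle : ∀ v ∈ P, w v ≤ hi - lo := by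
    intro v hv
    simp only [hw]
    linarith [hlo v hv]
  have hdc := double_count P (fun a b => (leftOf P a b).card = k) w
    (fun v q => ((sgnAt v α β q : ℤ) : ℝ))
  -- the left side of the double count is the total variation
  have hleft : ∑ e ∈ P.offDiag, (if (leftOf P e.1 e.2).card = k then
        w e.1 * ((sgnAt e.1 α β e.2 : ℤ) : ℝ) + w e.2 * ((sgnAt e.2 α β e.1 : ℤ) : ℝ) else 0)
      = ∑ e ∈ kEdges P k, |g e.2 - g e.1| := by
    unfold kEdges
    rw [Finset.sum_filter]
    apply Finset.sum_congr rfl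
    intro e he
    have he' := Finset.mem_offDiag.1 he
    by_cases hE : (leftOf P e.1 e.2).card = k
    · rw [if_pos hE, if_pos hE]
      have hne := hX e.1 he'.1 e.2 he'.2.1 (Ne.symm he'.2.2)
      by_cases hsign : 0 < xCoord e.1 α β e.2
      · have h3 : ¬ 0 < xCoord e.2 α β e.1 := by
          rw [hanti]
          linarith
        have h4 : g e.1 ≤ g e.2 := by
          by_contra hcon
          have := hpos e.2 he'.2.1 e.1 he'.1 (not_le.1 hcon)
          exact h3 this
        unfold sgnAt
        rw [if_pos hsign, if_neg h3, abs_of_nonneg (by linarith)]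
        simp only [hw]
        push_cast
        ring
      · have h3 : 0 < xCoord e.2 α β e.1 := by
          rw [hanti]
          have : xCoord e.1 α β e.2 < 0 := lt_of_le_of_ne (not_lt.1 hsign) hne
          linarith
        have h4 : g e.2 ≤ g e.1 := by
          by_contra hcon
          have := hpos e.1 he'.1 e.2 he'.2.1 (not_le.1 hcon)
          exact hsign this
        unfold sgnAt
        rw [if_neg hsign, if_pos h3, abs_of_nonpos (by linarith)]
        simp only [hw]
        push_cast
        ring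
    · rw [if_neg hE, if_neg hE]
  -- the count of points with few points below
  have hcard : (P.filter (fun v => Nneg v ≤ k)).card ≤ k + 1 := by
    have hinj : Set.InjOn Nneg (P.filter (fun v => Nneg v ≤ k)) := by
      have hmono : ∀ v ∈ P, ∀ u ∈ P, 0 < xCoord v α β u → Nneg v < Nneg u := by
        intro v hv u hu hlt
        apply Finset.card_lt_card
        refine ⟨?_, ?_⟩
        · intro q hq
          have hq' := Finset.mem_filter.1 hq
          have hq'' := Finset.mem_erase.1 hq'.1
          rw [Finset.mem_filter, Finset.mem_erase]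
          have hnot := hq'.2
          unfold xCoord at hnot hlt ⊢
          refine ⟨⟨?_, hq''.2⟩, ?_⟩
          · rintro rfl
            exact hnot hlt
          · intro hcon
            apply hnot
            nlinarith
        · intro hsub
          have huv : v ≠ u := by
            rintro rfl
            have := hanti v v
            linarith
          have hvmem : v ∈ (P.erase u).filter (fun q => ¬ 0 < xCoord u α β q) := by
            rw [Finset.mem_filter, Finset.mem_erase]
            refine ⟨⟨huv, hv⟩, ?_⟩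
            rw [hanti]
            linarith
          have := hsub hvmem
          have h5 := (Finset.mem_filter.1 this).1
          exact (Finset.mem_erase.1 h5).1 rfl
      intro v hv u hu heq
      have hv' := (Finset.mem_filter.1 (Finset.mem_coe.1 hv)).1
      have hu' := (Finset.mem_filter.1 (Finset.mem_coe.1 hu)).1
      by_contra hne
      have hne0 := hX v hv' u hu' (Ne.symm hne)
      rcases lt_or_gt_of_ne hne0 with hlt | hgt
      · have h6 := hmono u hu' v hv' (by rw [hanti]; linarith)
        omega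
      · have h6 := hmono v hv' u hu' hgt
        omega
    have := Finset.card_le_card_of_injOn Nneg (t := Finset.range (k + 1)) (by
      intro v hv
      have hv' := (Finset.mem_filter.1 (Finset.mem_coe.1 hv)).2
      simp only [Finset.coe_range, Set.mem_Iio]
      omega) hinj
    simpa using this
  -- bound the weighted sum
  have hupper : ∑ v ∈ P, w v * ε v ≤ ∑ v ∈ P, (if Nneg v ≤ k then 2 * (hi - lo) else 0) := by
    apply Finset.sum_le_sum
    intro v hv
    by_cases hk : Nneg v ≤ k
    · rw [if_pos hk]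
      have h6 := hεtwo v hv
      have h7 := hwnn v hv
      have h8 := hwle v hv
      nlinarith
    · rw [if_neg hk]
      have h6 := hεzero v hv (not_le.1 hk)
      have h7 := hwnn v hv
      nlinarith
  have hsumif : ∑ v ∈ P, (if Nneg v ≤ k then 2 * (hi - lo) else 0)
      = ((P.filter (fun v => Nneg v ≤ k)).card : ℝ) * (2 * (hi - lo)) := by
    rw [← Finset.sum_filter, Finset.sum_const, nsmul_eq_mul]
  have hcardR : ((P.filter (fun v => Nneg v ≤ k)).card : ℝ) ≤ (k : ℝ) + 1 := by
    exact_mod_cast hcard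
  have hfinal : ∑ e ∈ kEdges P k, |g e.2 - g e.1|
      ≤ ((P.filter (fun v => Nneg v ≤ k)).card : ℝ) * (2 * (hi - lo)) := by
    rw [← hleft, ← hsumif]
    calc _ = ∑ v ∈ P, w v * ε v := hdc.symm
      _ ≤ _ := hupper
  have h9 : ((P.filter (fun v => Nneg v ≤ k)).card : ℝ) * (2 * (hi - lo))
      ≤ ((k : ℝ) + 1) * (2 * (hi - lo)) :=
    mul_le_mul_of_nonneg_right hcardR (by linarith)
  calc _ ≤ _ := hfinal
    _ ≤ _ := h9
    _ = _ := by ring

end Vale.Agent.Lib.P065
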