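import Mathlib

/-!
Definitions for the planar `k`-set and halving-line problem.
-/

open Finset

namespace Vale.Agent.Lib.P065

/-- Twice the signed area of the triangle `p q r`: positive exactly when `r` lies strictly to
the left of the directed line from `p` to `q`. -/
def det (p q r : ℝ × ℝ) : ℝ :=
  (q.1 - p.1) * (r.2 - p.2) - (q.2 - p.2) * (r.1 - p.1)

/-- No three distinct points of `P` are collinear. -/
def GeneralPosition (P : Finset (ℝ × ℝ)) : Prop :=
  ∀ a ∈ P, ∀ b ∈ P, ∀ c ∈ P, a ≠ b → a ≠ c → b ≠ c → det a b c ≠ 0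

/-- The points of `P` strictly to the left of the directed line from `a` to `b`. -/
noncomputable def leftOf (P : Finset (ℝ × ℝ)) (a b : ℝ × ℝ) : Finset (ℝ × ℝ) :=
  P.filter (fun r => 0 < det a b r)

/-- The points of `P` strictly to the right of the directed line from `a` to `b`. -/
noncomputable def rightOf (P : Finset (ℝ × ℝ)) (a b : ℝ × ℝ) : Finset (ℝ × ℝ) :=
  P.filter (fun r => det a b r < 0)

/-- Directed `k`-edges of `P`: ordered pairs of distinct points of `P` with exactly `k` points of
`P` strictly to the left of the directed line through them. -/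
noncomputable def kEdges (P : Finset (ℝ × ℝ)) (k : ℕ) : Finset ((ℝ × ℝ) × (ℝ × ℝ)) :=
  P.offDiag.filter (fun e => (leftOf P e.1 e.2).card = k)

/-- `S` is a `k`-set of `P` in the sense of strict separation by a line, apart from the size
condition: `S ⊆ P` and some line has `S` in one open halfplane and `P \ S` in the other. -/
def IsSeparated (P S : Finset (ℝ × ℝ)) : Prop :=
  S ⊆ P ∧ ∃ a b c : ℝ, (a ≠ 0 ∨ b ≠ 0) ∧
    (∀ p ∈ S, a * p.1 + b * p.2 < c) ∧ (∀ p ∈ P \ S, c < a * p.1 + b * p.2)

open Classical in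
/-- The `k`-sets of `P`. -/
noncomputable def kSets (P : Finset (ℝ × ℝ)) (k : ℕ) : Finset (Finset (ℝ × ℝ)) :=
  (P.powersetCard k).filter (fun S => IsSeparated P S)

/-- The halving lines of `P`, as unordered pairs of points of `P` spanning a line with exactly
`(card P - 2) / 2` points of `P` in each of its open halfplanes. -/
noncomputable def halvingLines (P : Finset (ℝ × ℝ)) : Finset (Sym2 (ℝ × ℝ)) :=
  (P.offDiag.filter (fun e =>
    2 * (leftOf P e.1 e.2).card + 2 = P.card ∧ 2 * (rightOf P e.1 e.2).card + 2 = P.card)).image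
    (fun e => s(e.1, e.2))

/-- `p` is a vertex (extreme point) of the finite set `S`: some linear functional attains its
minimum over `S` only at `p`. -/
def IsVertex (S : Finset (ℝ × ℝ)) (p : ℝ × ℝ) : Prop :=
  ∃ a b : ℝ, ∀ q ∈ S, q ≠ p → a * p.1 + b * p.2 < a * q.1 + b * q.2

open Classical in
/-- One step of onion peeling: remove from `S` all the vertices of `S`. -/
noncomputable def peel (S : Finset (ℝ × ℝ)) : Finset (ℝ × ℝ) :=
  S.filter (fun p => ¬ IsVertex S p)

/-- The area of the triangle `a b c`. -/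
noncomputable def triangleArea (a b c : ℝ × ℝ) : ℝ := |det a b c| / 2

/-- The ordered triples of distinct points of `P` spanning a triangle of area less than `Δ`. -/
noncomputable def smallTriples (P : Finset (ℝ × ℝ)) (Δ : ℝ) :
    Finset (((ℝ × ℝ) × (ℝ × ℝ)) × (ℝ × ℝ)) :=
  ((P ×ˢ P) ×ˢ P).filter (fun t =>
    t.1.1 ≠ t.1.2 ∧ t.1.1 ≠ t.2 ∧ t.1.2 ≠ t.2 ∧ triangleArea t.1.1 t.1.2 t.2 < Δ)

end Vale.Agent.Lib.P065
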