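import Mathlib

/-!
An abstract inequality for sequences with large consecutive ears.
-/

open Finset

namespace Vale.Agent.Lib.P065

/-- Three-term arithmetic-geometric mean inequality in polynomial form. -/
lemma amgm_poly {X Y : ℝ} (hX : 0 < X) (hY : 0 < Y) : 3 * (X * Y) ≤ 1 + X * Y * (X + Y) := by
  by_cases h4 : Y ≤ 4
  · have h1 : 0 ≤ Y * (Y - 1) ^ 2 * (4 - Y) := by
      apply mul_nonneg (mul_nonneg hY.le (sq_nonneg _))
      linarith
    have h2 : 4 * Y * (1 + X * Y * (X + Y) - 3 * (X * Y))
        = (2 * Y * X + Y ^ 2 - 3 * Y) ^ 2 + Y * (Y - 1) ^ 2 * (4 - Y) := by ring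
    have h3 : 0 ≤ 4 * Y * (1 + X * Y * (X + Y) - 3 * (X * Y)) := by
      rw [h2]
      exact add_nonneg (sq_nonneg _) h1
    have h5 : 0 ≤ 1 + X * Y * (X + Y) - 3 * (X * Y) := by
      by_contra hneg
      have h6 := mul_neg_of_pos_of_neg (by linarith : 0 < 4 * Y) (not_le.1 hneg)
      linarith
    linarith
  · have h5 : 4 < Y := not_le.1 h4
    have h6 : 0 < X * Y := mul_pos hX hY
    have h7 : 3 ≤ X + Y := by linarith
    nlinarith

/-- The tangent form used in the ear sum. -/
lemma tangent_bound {x y d δ t : ℝ} (hx : 0 < x) (hy : 0 < y) (hδ : 0 < δ) (ht : 0 < t)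
    (h : δ ≤ x * y * d) : 3 * t ^ 2 ≤ d / δ + t ^ 3 * (x + y) := by
  have h1 := amgm_poly (mul_pos ht hx) (mul_pos ht hy)
  have hxy : 0 < x * y := mul_pos hx hy
  have hd : 0 < d := by
    by_contra hneg
    have : x * y * d ≤ 0 := mul_nonpos_of_nonneg_of_nonpos hxy.le (not_lt.1 hneg)
    linarith
  have h2 : 1 / (x * y) ≤ d / δ := by
    rw [div_le_div_iff₀ hxy hδ]
    linarith
  have h3 : 3 * t ^ 2 ≤ 1 / (x * y) + t ^ 3 * (x + y) := by
    have h4 : 3 * t ^ 2 * (x * y) ≤ 1 + t ^ 3 * (x + y) * (x * y) := by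
      nlinarith [h1]
    have h5 : 1 / (x * y) + t ^ 3 * (x + y) = (1 + t ^ 3 * (x + y) * (x * y)) / (x * y) := by
      field_simp
    rw [h5, le_div_iff₀ hxy]
    exact h4
  linarith

/-- Inductive form of the ear sum. -/
lemma ear_induct {ι : Type*} [DecidableEq ι] (s x : ι → ℝ) {δ t lo : ℝ} (hδ : 0 < δ) (ht : 0 < t)
    (C : Finset ι) :
    (Set.InjOn s C) → (∀ e ∈ C, 0 < x e) → (∀ e ∈ C, lo ≤ s e) →
    (∀ e ∈ C, ∀ f ∈ C, s e < s f → (∀ g ∈ C, ¬ (s e < s g ∧ s g < s f)) →
      δ ≤ x e * x f * (s f - s e)) →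
    C.Nonempty →
    ∃ τ ∈ C, (∀ y ∈ C, s y ≤ s τ) ∧
      3 * t ^ 2 * ((C.card : ℝ) - 1) ≤ (s τ - lo) / δ + t ^ 3 * (2 * ∑ e ∈ C, x e - x τ) := by
  induction C using Finset.induction_on_max_value s with
  | empty => intro _ _ _ _ h; exact absurd h (by simp)
  | insert z C hz hmax ih =>
    intro hinj hxpos hlo hcons _
    by_cases hC : C.Nonempty
    · have hinjC : Set.InjOn s C := hinj.mono (by
        intro y hy
        simp only [Finset.coe_insert, Set.mem_insert_iff, Finset.mem_coe]
        exact Or.inr hy)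
      have hconsC : ∀ e ∈ C, ∀ f ∈ C, s e < s f → (∀ g ∈ C, ¬ (s e < s g ∧ s g < s f)) →
          δ ≤ x e * x f * (s f - s e) := by
        intro e he f hf hef hno
        apply hcons e (mem_insert_of_mem he) f (mem_insert_of_mem hf) hef
        intro g hg
        rcases Finset.mem_insert.1 hg with rfl | hg'
        · intro hh
          have := hmax f hf
          linarith [hh.2]
        · exact hno g hg'
      obtain ⟨τ, hτ, hτmax, hbound⟩ := ih hinjC (fun e he => hxpos e (mem_insert_of_mem he))
        (fun e he => hlo e (mem_insert_of_mem he)) hconsC hC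
      have hτz : s τ < s z := by
        refine lt_of_le_of_ne (hmax τ hτ) ?_
        intro h
        have h2 := hinj (by simp [hτ]) (by simp) h
        exact hz (h2 ▸ hτ)
      have hear : δ ≤ x τ * x z * (s z - s τ) := by
        apply hcons τ (mem_insert_of_mem hτ) z (mem_insert_self _ _) hτz
        intro g hg
        rcases Finset.mem_insert.1 hg with rfl | hg'
        · intro hh
          exact lt_irrefl _ hh.2
        · intro hh
          have := hτmax g hg'
          linarith [hh.1]
      have htan := tangent_bound (hxpos τ (mem_insert_of_mem hτ)) (hxpos z (mem_insert_self _ _))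
        hδ ht hear
      refine ⟨z, mem_insert_self _ _, ?_, ?_⟩
      · intro y hy
        rcases Finset.mem_insert.1 hy with rfl | hy'
        · exact le_rfl
        · exact hmax y hy'
      · rw [Finset.card_insert_of_notMem hz, Finset.sum_insert hz]
        push_cast
        have hsplit : (s z - lo) / δ = (s τ - lo) / δ + (s z - s τ) / δ := by
          rw [← add_div]
          congr 1
          ring
        rw [hsplit]
        nlinarith
    · have hCe : C = ∅ := Finset.not_nonempty_iff_eq_empty.1 hC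
      subst hCe
      refine ⟨z, by simp, ?_, ?_⟩
      · intro y hy
        simp only [insert_empty_eq, Finset.mem_singleton] at hy
        rw [hy]
      · simp only [insert_empty_eq, Finset.card_singleton, Finset.sum_singleton]
        have h1 := hxpos z (by simp)
        have h2 := hlo z (by simp)
        have h3 : 0 ≤ (s z - lo) / δ := div_nonneg (by linarith) hδ.le
        have h4 : 0 < t ^ 3 * (2 * x z - x z) := by
          apply mul_pos (pow_pos ht 3)
          linarith
        push_cast
        nlinarith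

/-- The abstract ear bound. -/
theorem ear_bound {ι : Type*} [DecidableEq ι] (s x : ι → ℝ) {δ lo hi A : ℝ} (hδ : 0 < δ)
    (hA : 0 < A) (hr : lo ≤ hi) (C : Finset ι)
    (hinj : Set.InjOn s C) (hxpos : ∀ e ∈ C, 0 < x e) (hlo : ∀ e ∈ C, lo ≤ s e)
    (hhi : ∀ e ∈ C, s e ≤ hi)
    (hcons : ∀ e ∈ C, ∀ f ∈ C, s e < s f → (∀ g ∈ C, ¬ (s e < s g ∧ s g < s f)) →
      δ ≤ x e * x f * (s f - s e))
    (hsum : ∑ e ∈ C, x e ≤ A) :
    ((C.card : ℝ) - 1) ^ 3 * δ ≤ (hi - lo) * A ^ 2 := by
  by_cases hR : (C.card : ℝ) - 1 ≤ 0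
  · have h1 : 0 ≤ hi - lo := by linarith
    have h2 : ((C.card : ℝ) - 1) ^ 3 * δ ≤ 0 := by
      apply mul_nonpos_of_nonpos_of_nonneg _ hδ.le
      have h3 : ((C.card : ℝ) - 1) ^ 3 = ((C.card : ℝ) - 1) * ((C.card : ℝ) - 1) ^ 2 := by ring
      rw [h3]
      exact mul_nonpos_of_nonpos_of_nonneg hR (sq_nonneg _)
    exact le_trans h2 (mul_nonneg h1 (sq_nonneg _))
  · have hRpos : 0 < (C.card : ℝ) - 1 := not_le.1 hR
    have hne : C.Nonempty := by
      rw [← Finset.card_pos]
      have : (1 : ℝ) < (C.card : ℝ) := by linarith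
      have h2 : 1 < C.card := by exact_mod_cast this
      omega
    set R := (C.card : ℝ) - 1 with hRdef
    set t := R / A with ht
    have htpos : 0 < t := div_pos hRpos hA
    obtain ⟨τ, hτ, _, hbound⟩ := ear_induct s x hδ htpos C hinj hxpos hlo hcons hne
    have h1 : 0 < x τ := hxpos τ hτ
    have h2 : s τ ≤ hi := hhi τ hτ
    have h3 : (s τ - lo) / δ ≤ (hi - lo) / δ := by
      apply div_le_div_of_nonneg_right _ hδ.le
      linarith
    have h4 : t ^ 3 * (2 * ∑ e ∈ C, x e - x τ) ≤ t ^ 3 * (2 * A) := by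
      apply mul_le_mul_of_nonneg_left _ (pow_pos htpos 3).le
      linarith
    have h5 : 3 * t ^ 2 * R ≤ (hi - lo) / δ + t ^ 3 * (2 * A) := by linarith
    have h6 : t * A = R := by
      rw [ht]
      field_simp
    have h7 : t ^ 3 * (2 * A) = 2 * t ^ 2 * R := by
      rw [← h6]
      ring
    have h8 : t ^ 2 * R ≤ (hi - lo) / δ := by
      rw [h7] at h5
      linarith
    have h9 : t ^ 2 * R * δ ≤ hi - lo := by
      rwa [le_div_iff₀ hδ] at h8
    have h10 : R ^ 3 * δ = (t ^ 2 * R * δ) * A ^ 2 := by
      rw [← h6]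
      ring
    rw [h10]
    exact mul_le_mul_of_nonneg_right h9 (sq_nonneg _)

/-- Inductive form of the ear sum, with exceptional elements. -/
lemma ear_induct_bad {ι : Type*} [DecidableEq ι] (s x : ι → ℝ) (B : Finset ι) {δ t lo : ℝ}
    (hδ : 0 < δ) (ht : 0 < t) (C : Finset ι) :
    (Set.InjOn s C) → (∀ e ∈ C, 0 < x e) → (∀ e ∈ C, lo ≤ s e) →
    (∀ e ∈ C, ∀ f ∈ C, s e < s f → (∀ g ∈ C, ¬ (s e < s g ∧ s g < s f)) →
      e ∈ B ∨ δ ≤ x e * x f * (s f - s e)) →
    C.Nonempty →
    ∃ τ ∈ C, (∀ y ∈ C, s y ≤ s τ) ∧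
      3 * t ^ 2 * ((C.filter (fun e => e ≠ τ ∧ e ∉ B)).card : ℝ)
        ≤ (s τ - lo) / δ + t ^ 3 * (2 * ∑ e ∈ C, x e - x τ) := by
  induction C using Finset.induction_on_max_value s with
  | empty => intro _ _ _ _ h; exact absurd h (by simp)
  | insert z C hz hmax ih =>
    intro hinj hxpos hlo hcons _
    by_cases hC : C.Nonempty
    · have hinjC : Set.InjOn s C := hinj.mono (by
        intro y hy
        simp only [Finset.coe_insert, Set.mem_insert_iff, Finset.mem_coe]
        exact Or.inr hy)
      have hconsC : ∀ e ∈ C, ∀ f ∈ C, s e < s f → (∀ g ∈ C, ¬ (s e < s g ∧ s g < s f)) →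
          e ∈ B ∨ δ ≤ x e * x f * (s f - s e) := by
        intro e he f hf hef hno
        apply hcons e (mem_insert_of_mem he) f (mem_insert_of_mem hf) hef
        intro g hg
        rcases Finset.mem_insert.1 hg with rfl | hg'
        · intro hh
          have := hmax f hf
          linarith [hh.2]
        · exact hno g hg'
      obtain ⟨τ, hτ, hτmax, hbound⟩ := ih hinjC (fun e he => hxpos e (mem_insert_of_mem he))
        (fun e he => hlo e (mem_insert_of_mem he)) hconsC hC
      have hτz : s τ < s z := by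
        refine lt_of_le_of_ne (hmax τ hτ) ?_
        intro h
        have h2 := hinj (by simp [hτ]) (by simp) h
        exact hz (h2 ▸ hτ)
      have hear : τ ∈ B ∨ δ ≤ x τ * x z * (s z - s τ) := by
        apply hcons τ (mem_insert_of_mem hτ) z (mem_insert_self _ _) hτz
        intro g hg
        rcases Finset.mem_insert.1 hg with rfl | hg'
        · intro hh
          exact lt_irrefl _ hh.2
        · intro hh
          have := hτmax g hg'
          linarith [hh.1]
      have hτx := hxpos τ (mem_insert_of_mem hτ)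
      have hzx := hxpos z (mem_insert_self _ _)
      have hfilter : (insert z C).filter (fun e => e ≠ z ∧ e ∉ B) = C.filter (fun e => e ∉ B) := by
        ext e
        simp only [Finset.mem_filter, Finset.mem_insert]
        constructor
        · rintro ⟨h1 | h1, h2, h3⟩
          · exact absurd h1 h2
          · exact ⟨h1, h3⟩
        · rintro ⟨h1, h3⟩
          refine ⟨Or.inr h1, ?_, h3⟩
          rintro rfl
          exact hz h1
      refine ⟨z, mem_insert_self _ _, ?_, ?_⟩
      · intro y hy
        rcases Finset.mem_insert.1 hy with rfl | hy'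
        · exact le_rfl
        · exact hmax y hy'
      · rw [hfilter, Finset.sum_insert hz]
        have hsplit : (s z - lo) / δ = (s τ - lo) / δ + (s z - s τ) / δ := by
          rw [← add_div]
          congr 1
          ring
        have hgap : 0 ≤ (s z - s τ) / δ := div_nonneg (by linarith) hδ.le
        by_cases hτB : τ ∈ B
        · have hfe : C.filter (fun e => e ∉ B) = C.filter (fun e => e ≠ τ ∧ e ∉ B) := by
            ext e
            simp only [Finset.mem_filter]
            constructor
            · rintro ⟨h1, h3⟩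
              refine ⟨h1, ?_, h3⟩
              rintro rfl
              exact h3 hτB
            · rintro ⟨h1, _, h3⟩
              exact ⟨h1, h3⟩
          rw [hfe, hsplit]
          have h5 : 0 < t ^ 3 * (x z + x τ) := mul_pos (pow_pos ht 3) (by linarith)
          nlinarith
        · have hgood : δ ≤ x τ * x z * (s z - s τ) := by
            rcases hear with h | h
            · exact absurd h hτB
            · exact h
          have htan := tangent_bound hτx hzx hδ ht hgood
          have hfe : C.filter (fun e => e ∉ B) = insert τ (C.filter (fun e => e ≠ τ ∧ e ∉ B)) := by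
            ext e
            simp only [Finset.mem_filter, Finset.mem_insert]
            constructor
            · rintro ⟨h1, h3⟩
              by_cases h4 : e = τ
              · exact Or.inl h4
              · exact Or.inr ⟨h1, h4, h3⟩
            · rintro (rfl | ⟨h1, _, h3⟩)
              · exact ⟨hτ, hτB⟩
              · exact ⟨h1, h3⟩
          rw [hfe, Finset.card_insert_of_notMem (by simp), hsplit]
          push_cast
          nlinarith
    · have hCe : C = ∅ := Finset.not_nonempty_iff_eq_empty.1 hC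
      subst hCe
      refine ⟨z, by simp, ?_, ?_⟩
      · intro y hy
        simp only [insert_empty_eq, Finset.mem_singleton] at hy
        rw [hy]
      · have h0 : (({z} : Finset ι).filter (fun e => e ≠ z ∧ e ∉ B)) = ∅ := by
          apply Finset.filter_eq_empty_iff.2
          intro e he h
          exact h.1 (Finset.mem_singleton.1 he)
        simp only [insert_empty_eq, Finset.sum_singleton]
        rw [h0, Finset.card_empty]
        have h1 := hxpos z (by simp)
        have h2 := hlo z (by simp)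
        have h3 : 0 ≤ (s z - lo) / δ := div_nonneg (by linarith) hδ.le
        have h4 : 0 < t ^ 3 * (2 * x z - x z) := by
          apply mul_pos (pow_pos ht 3)
          linarith
        push_cast
        nlinarith

/-- The abstract ear bound, with exceptional elements. -/
theorem ear_bound_bad {ι : Type*} [DecidableEq ι] (s x : ι → ℝ) (B : Finset ι) {δ lo hi A : ℝ}
    (hδ : 0 < δ) (hA : 0 < A) (hr : lo ≤ hi) (C : Finset ι)
    (hinj : Set.InjOn s C) (hxpos : ∀ e ∈ C, 0 < x e) (hlo : ∀ e ∈ C, lo ≤ s e)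
    (hhi : ∀ e ∈ C, s e ≤ hi)
    (hcons : ∀ e ∈ C, ∀ f ∈ C, s e < s f → (∀ g ∈ C, ¬ (s e < s g ∧ s g < s f)) →
      e ∈ B ∨ δ ≤ x e * x f * (s f - s e))
    (hsum : ∑ e ∈ C, x e ≤ A) :
    ((C.card : ℝ) - 1 - (B.card : ℝ)) ^ 3 * δ ≤ (hi - lo) * A ^ 2 := by
  by_cases hR : (C.card : ℝ) - 1 - (B.card : ℝ) ≤ 0
  · have h1 : 0 ≤ hi - lo := by linarith
    have h2 : ((C.card : ℝ) - 1 - (B.card : ℝ)) ^ 3 * δ ≤ 0 := by
      apply mul_nonpos_of_nonpos_of_nonneg _ hδ.le
      have h3 : ((C.card : ℝ) - 1 - (B.card : ℝ)) ^ 3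
          = ((C.card : ℝ) - 1 - (B.card : ℝ)) * ((C.card : ℝ) - 1 - (B.card : ℝ)) ^ 2 := by ring
      rw [h3]
      exact mul_nonpos_of_nonpos_of_nonneg hR (sq_nonneg _)
    exact le_trans h2 (mul_nonneg h1 (sq_nonneg _))
  · have hRpos : 0 < (C.card : ℝ) - 1 - (B.card : ℝ) := not_le.1 hR
    have hBnn : (0 : ℝ) ≤ (B.card : ℝ) := Nat.cast_nonneg _
    have hne : C.Nonempty := by
      rw [← Finset.card_pos]
      have : (1 : ℝ) < (C.card : ℝ) := by linarith
      have h2 : 1 < C.card := by exact_mod_cast this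
      omega
    set R := (C.card : ℝ) - 1 - (B.card : ℝ) with hRdef
    set t := R / A with ht
    have htpos : 0 < t := div_pos hRpos hA
    obtain ⟨τ, hτ, _, hbound⟩ := ear_induct_bad s x B hδ htpos C hinj hxpos hlo hcons hne
    have h1 : 0 < x τ := hxpos τ hτ
    have h2 : s τ ≤ hi := hhi τ hτ
    have h3 : (s τ - lo) / δ ≤ (hi - lo) / δ := by
      apply div_le_div_of_nonneg_right _ hδ.le
      linarith
    have h4 : t ^ 3 * (2 * ∑ e ∈ C, x e - x τ) ≤ t ^ 3 * (2 * A) := by
      apply mul_le_mul_of_nonneg_left _ (pow_pos htpos 3).le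
      linarith
    -- the filtered set is large
    have hcardfilter : R ≤ ((C.filter (fun e => e ≠ τ ∧ e ∉ B)).card : ℝ) := by
      have hsub : C ⊆ insert τ (C.filter (fun e => e ≠ τ ∧ e ∉ B)) ∪ B := by
        intro e he
        simp only [Finset.mem_union, Finset.mem_insert, Finset.mem_filter]
        by_cases h5 : e = τ
        · exact Or.inl (Or.inl h5)
        · by_cases h6 : e ∈ B
          · exact Or.inr h6
          · exact Or.inl (Or.inr ⟨he, h5, h6⟩)
      have h7 := Finset.card_le_card hsub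
      have h8 := Finset.card_union_le (insert τ (C.filter (fun e => e ≠ τ ∧ e ∉ B))) B
      have h9 := Finset.card_insert_le τ (C.filter (fun e => e ≠ τ ∧ e ∉ B))
      have h10 : C.card ≤ (C.filter (fun e => e ≠ τ ∧ e ∉ B)).card + 1 + B.card := by omega
      have h11 : (C.card : ℝ) ≤ ((C.filter (fun e => e ≠ τ ∧ e ∉ B)).card : ℝ) + 1 + (B.card : ℝ) := by
        exact_mod_cast h10
      rw [hRdef]
      linarith
    have h5 : 3 * t ^ 2 * R ≤ (hi - lo) / δ + t ^ 3 * (2 * A) := by
      have h5a : 3 * t ^ 2 * R ≤ 3 * t ^ 2 * ((C.filter (fun e => e ≠ τ ∧ e ∉ B)).card : ℝ) :=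
        mul_le_mul_of_nonneg_left hcardfilter (by positivity)
      linarith
    have h6 : t * A = R := by
      rw [ht]
      field_simp
    have h7 : t ^ 3 * (2 * A) = 2 * t ^ 2 * R := by
      rw [← h6]
      ring
    have h8 : t ^ 2 * R ≤ (hi - lo) / δ := by
      rw [h7] at h5
      linarith
    have h9 : t ^ 2 * R * δ ≤ hi - lo := by
      rwa [le_div_iff₀ hδ] at h8
    have h10 : R ^ 3 * δ = (t ^ 2 * R * δ) * A ^ 2 := by
      rw [← h6]
      ring
    rw [h10]
    exact mul_le_mul_of_nonneg_right h9 (sq_nonneg _)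

end Vale.Agent.Lib.P065
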