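import Vale.Agent.Lib.P065.Cut
import Vale.Agent.Lib.P065.Ears

/-!
Rightward `k`-edges in an orthonormal frame, and the ear inequality for consecutive edges.
-/

open Finset

namespace Vale.Agent.Lib.P065

section Frame

variable (g h : ℝ × ℝ → ℝ)

/-- The slope of a directed pair in the frame `(g, h)`. -/
noncomputable def slp (e : (ℝ × ℝ) × (ℝ × ℝ)) : ℝ := (h e.2 - h e.1) / (g e.2 - g e.1)

/-- The height of a point above the lines of slope `s` in the frame `(g, h)`. -/
def phi (s : ℝ) (p : ℝ × ℝ) : ℝ := h p - s * g p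

/-- A rightward `k`-edge. -/
structure RightEdge (P : Finset (ℝ × ℝ)) (k : ℕ) (e : (ℝ × ℝ) × (ℝ × ℝ)) : Prop where
  fst_mem : e.1 ∈ P
  snd_mem : e.2 ∈ P
  lt : g e.1 < g e.2
  card : (leftOf P e.1 e.2).card = k

variable {g h} (hdet : ∀ a b r, det a b r = (g b - g a) * (h r - h a) - (h b - h a) * (g r - g a))

include hdet in
lemma det_eq_phi {a b : ℝ × ℝ} (hab : g a < g b) (r : ℝ × ℝ) :
    det a b r = (g b - g a) * (phi g h (slp g h (a, b)) r - phi g h (slp g h (a, b)) a) := by
  have hs : slp g h (a, b) * (g b - g a) = h b - h a := by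
    unfold slp
    simp only
    field_simp [sub_ne_zero.2 (ne_of_gt hab)]
  rw [hdet]
  unfold phi
  linear_combination (g r - g a) * hs

lemma phi_snd_eq {a b : ℝ × ℝ} (hab : g a < g b) :
    phi g h (slp g h (a, b)) b = phi g h (slp g h (a, b)) a := by
  have hs : slp g h (a, b) * (g b - g a) = h b - h a := by
    unfold slp
    simp only
    field_simp [sub_ne_zero.2 (ne_of_gt hab)]
  unfold phi
  linear_combination - hs

include hdet in
lemma det_pos_iff {a b : ℝ × ℝ} (hab : g a < g b) (r : ℝ × ℝ) :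
    0 < det a b r ↔ phi g h (slp g h (a, b)) a < phi g h (slp g h (a, b)) r := by
  rw [det_eq_phi hdet hab, mul_pos_iff_of_pos_left (by linarith)]
  constructor <;> intro h0 <;> linarith

include hdet in
lemma det_nonpos_iff {a b : ℝ × ℝ} (hab : g a < g b) (r : ℝ × ℝ) :
    det a b r ≤ 0 ↔ phi g h (slp g h (a, b)) r ≤ phi g h (slp g h (a, b)) a := by
  rw [← not_lt, det_pos_iff hdet hab, not_lt]

include hdet in
/-- Two rightward `k`-edges of the same slope are at the same height. -/
lemma same_height {P : Finset (ℝ × ℝ)} {k : ℕ} {e f : (ℝ × ℝ) × (ℝ × ℝ)}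
    (he : RightEdge g P k e) (hf : RightEdge g P k f)
    (hs : slp g h e = slp g h f) :
    ¬ phi g h (slp g h e) e.1 < phi g h (slp g h e) f.1 := by
  intro hlt
  have hsub : leftOf P f.1 f.2 ⊂ leftOf P e.1 e.2 := by
    refine ⟨?_, ?_⟩
    · intro r hr
      have hr' := Finset.mem_filter.1 hr
      have h1 := (det_pos_iff hdet hf.lt r).1 hr'.2
      refine Finset.mem_filter.2 ⟨hr'.1, (det_pos_iff hdet he.lt r).2 ?_⟩
      have e1 : (e.1, e.2) = e := rfl
      have e2 : (f.1, f.2) = f := rfl
      rw [e1]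
      rw [e2] at h1
      rw [hs]
      rw [hs] at hlt
      linarith
    · intro hsub
      have hmem : f.1 ∈ leftOf P e.1 e.2 := by
        refine Finset.mem_filter.2 ⟨hf.fst_mem, (det_pos_iff hdet he.lt _).2 ?_⟩
        exact hlt
      have := hsub hmem
      have h3 := (Finset.mem_filter.1 this).2
      rw [det_self_left] at h3
      exact lt_irrefl _ h3
  have := Finset.card_lt_card hsub
  rw [he.card, hf.card] at this
  exact lt_irrefl _ this

include hdet in
/-- Two rightward `k`-edges of the same slope coincide. -/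
lemma right_edge_unique {P : Finset (ℝ × ℝ)} (hgp : GeneralPosition P) {k : ℕ}
    {e f : (ℝ × ℝ) × (ℝ × ℝ)} (he : RightEdge g P k e) (hf : RightEdge g P k f)
    (hs : slp g h e = slp g h f) : e = f := by
  have h1 := same_height hdet he hf hs
  have h2 := same_height hdet hf he hs.symm
  rw [← hs] at h2
  have heq : phi g h (slp g h e) e.1 = phi g h (slp g h e) f.1 := by
    apply le_antisymm (not_lt.1 h2) (not_lt.1 h1)
  have hne : e.1 ≠ e.2 := fun h0 => by
    have := he.lt
    rw [h0] at this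
    exact lt_irrefl _ this
  have hzero : ∀ r, phi g h (slp g h e) r = phi g h (slp g h e) e.1 → det e.1 e.2 r = 0 := by
    intro r hr
    have e1 : (e.1, e.2) = e := rfl
    rw [det_eq_phi hdet he.lt, e1, hr]
    ring
  have hf1 : f.1 = e.1 ∨ f.1 = e.2 := by
    by_contra hcon
    push Not at hcon
    exact hgp e.1 he.fst_mem e.2 he.snd_mem f.1 hf.fst_mem hne (Ne.symm hcon.1) (Ne.symm hcon.2)
      (hzero _ heq.symm)
  have hf2eq : phi g h (slp g h e) f.2 = phi g h (slp g h e) e.1 := by
    have e2 : (f.1, f.2) = f := rfl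
    have := phi_snd_eq (g := g) (h := h) hf.lt
    rw [e2, ← hs] at this
    rw [this, heq]
  have hf2 : f.2 = e.1 ∨ f.2 = e.2 := by
    by_contra hcon
    push Not at hcon
    exact hgp e.1 he.fst_mem e.2 he.snd_mem f.2 hf.snd_mem hne (Ne.symm hcon.1) (Ne.symm hcon.2)
      (hzero _ hf2eq)
  have hlt1 := he.lt
  have hlt2 := hf.lt
  rcases hf1 with h3 | h3 <;> rcases hf2 with h4 | h4
  · rw [h3, h4] at hlt2
    exact absurd hlt2 (lt_irrefl _)
  · exact (Prod.ext h3 h4).symm
  · rw [h3, h4] at hlt2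
    exact absurd hlt2 (not_lt.2 hlt1.le)
  · rw [h3, h4] at hlt2
    exact absurd hlt2 (lt_irrefl _)

include hdet in
/-- A set strictly above its complement at slope `s` excludes any rightward `k`-edge of that
slope. -/
lemma no_edge_of_separated {P T : Finset (ℝ × ℝ)} {k : ℕ} {f : (ℝ × ℝ) × (ℝ × ℝ)}
    (hT : T ⊆ P) (hcard : T.card = k + 1)
    (hsep : ∀ t ∈ T, ∀ u ∈ P, u ∉ T → phi g h (slp g h f) u < phi g h (slp g h f) t)
    (hf : RightEdge g P k f) : False := by
  classical
  have e2 : (f.1, f.2) = f := rfl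
  have hphi : phi g h (slp g h f) f.2 = phi g h (slp g h f) f.1 := by
    have := phi_snd_eq (g := g) (h := h) hf.lt
    rwa [e2] at this
  have hne : f.1 ≠ f.2 := fun h0 => by
    have := hf.lt
    rw [h0] at this
    exact lt_irrefl _ this
  by_cases h1 : f.1 ∈ T
  · by_cases h2 : f.2 ∈ T
    · -- both endpoints in `T`
      have hsub : leftOf P f.1 f.2 ⊆ (T.erase f.1).erase f.2 := by
        intro r hr
        have hr' := Finset.mem_filter.1 hr
        have h3 := (det_pos_iff hdet hf.lt r).1 hr'.2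
        rw [e2] at h3
        rw [Finset.mem_erase, Finset.mem_erase]
        refine ⟨?_, ?_, ?_⟩
        · rintro rfl
          rw [hphi] at h3
          exact lt_irrefl _ h3
        · rintro rfl
          exact lt_irrefl _ h3
        · by_contra hrT
          have := hsep f.1 h1 r hr'.1 hrT
          linarith
      have h4 := Finset.card_le_card hsub
      have hpos : 0 < (T.erase f.1).card :=
        Finset.card_pos.2 ⟨f.2, Finset.mem_erase.2 ⟨Ne.symm hne, h2⟩⟩
      rw [Finset.card_erase_of_mem h1, hcard] at hpos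
      rw [Finset.card_erase_of_mem (Finset.mem_erase.2 ⟨Ne.symm hne, h2⟩),
        Finset.card_erase_of_mem h1, hcard, hf.card] at h4
      omega
    · have := hsep f.1 h1 f.2 hf.snd_mem h2
      rw [hphi] at this
      exact lt_irrefl _ this
  · by_cases h2 : f.2 ∈ T
    · have := hsep f.2 h2 f.1 hf.fst_mem h1
      rw [hphi] at this
      exact lt_irrefl _ this
    · -- both endpoints outside `T`
      have hsub : T ⊆ leftOf P f.1 f.2 := by
        intro t ht
        refine Finset.mem_filter.2 ⟨hT ht, (det_pos_iff hdet hf.lt t).2 ?_⟩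
        rw [e2]
        exact hsep t ht f.1 hf.fst_mem h1
      have h4 := Finset.card_le_card hsub
      rw [hcard, hf.card] at h4
      omega

/-- The points of `P` above or on the start of a rightward edge. -/
noncomputable def topSet (P : Finset (ℝ × ℝ)) (e : (ℝ × ℝ) × (ℝ × ℝ)) : Finset (ℝ × ℝ) :=
  insert e.1 (leftOf P e.1 e.2)

lemma topSet_subset {P : Finset (ℝ × ℝ)} {k : ℕ} {e : (ℝ × ℝ) × (ℝ × ℝ)}
    (he : RightEdge g P k e) : topSet P e ⊆ P := by
  intro r hr
  rcases Finset.mem_insert.1 hr with rfl | hr'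
  · exact he.fst_mem
  · exact (Finset.mem_filter.1 hr').1

lemma topSet_card {P : Finset (ℝ × ℝ)} {k : ℕ} {e : (ℝ × ℝ) × (ℝ × ℝ)}
    (he : RightEdge g P k e) : (topSet P e).card = k + 1 := by
  unfold topSet
  rw [Finset.card_insert_of_notMem, he.card]
  simp [leftOf, det_self_left]

include hdet in
lemma topSet_above {P : Finset (ℝ × ℝ)} {k : ℕ} {e : (ℝ × ℝ) × (ℝ × ℝ)}
    (he : RightEdge g P k e) {t : ℝ × ℝ} (ht : t ∈ topSet P e) (hne : t ≠ e.1) :
    phi g h (slp g h e) e.1 < phi g h (slp g h e) t := by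
  rcases Finset.mem_insert.1 ht with rfl | ht'
  · exact absurd rfl hne
  · exact (det_pos_iff hdet he.lt t).1 (Finset.mem_filter.1 ht').2

include hdet in
lemma topSet_above_le {P : Finset (ℝ × ℝ)} {k : ℕ} {e : (ℝ × ℝ) × (ℝ × ℝ)}
    (he : RightEdge g P k e) {t : ℝ × ℝ} (ht : t ∈ topSet P e) :
    phi g h (slp g h e) e.1 ≤ phi g h (slp g h e) t := by
  by_cases hne : t = e.1
  · rw [hne]
  · exact (topSet_above hdet he ht hne).le

include hdet in
lemma topSet_below_le {P : Finset (ℝ × ℝ)} {k : ℕ} {e : (ℝ × ℝ) × (ℝ × ℝ)}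
    (he : RightEdge g P k e) {u : ℝ × ℝ} (hu : u ∈ P) (hnt : u ∉ topSet P e) :
    phi g h (slp g h e) u ≤ phi g h (slp g h e) e.1 := by
  have h1 : ¬ 0 < det e.1 e.2 u := fun hd => hnt (Finset.mem_insert_of_mem
    (Finset.mem_filter.2 ⟨hu, hd⟩))
  rw [not_lt, det_nonpos_iff hdet he.lt] at h1
  exact h1

include hdet in
lemma topSet_below {P : Finset (ℝ × ℝ)} (hgp : GeneralPosition P) {k : ℕ}
    {e : (ℝ × ℝ) × (ℝ × ℝ)}
    (he : RightEdge g P k e) {u : ℝ × ℝ} (hu : u ∈ P) (hnt : u ∉ topSet P e) (hne : u ≠ e.2) :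
    phi g h (slp g h e) u < phi g h (slp g h e) e.1 := by
  refine lt_of_le_of_ne (topSet_below_le hdet he hu hnt) ?_
  intro heq
  have hua : u ≠ e.1 := fun h0 => hnt (h0 ▸ Finset.mem_insert_self _ _)
  have hab : e.1 ≠ e.2 := fun h0 => by
    have := he.lt
    rw [h0] at this
    exact lt_irrefl _ this
  apply hgp e.1 he.fst_mem e.2 he.snd_mem u hu hab (Ne.symm hua) (Ne.symm hne)
  rw [det_eq_phi hdet he.lt]
  have e1 : (e.1, e.2) = e := rfl
  rw [e1, heq]
  ring

include hdet in
/-- Separation of the top set from its complement above the slope of the edge. -/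
lemma sep_of_le {P : Finset (ℝ × ℝ)} (hgp : GeneralPosition P) {k : ℕ}
    {e : (ℝ × ℝ) × (ℝ × ℝ)} (he : RightEdge g P k e) {s : ℝ} (hs : slp g h e < s)
    {t u : ℝ × ℝ} (ht : t ∈ topSet P e) (hu : u ∈ P) (hnt : u ∉ topSet P e)
    (hle : g t ≤ g u) : phi g h s u < phi g h s t := by
  have h1 := topSet_above_le hdet he ht
  have h2 := topSet_below_le hdet he hu hnt
  have hid : phi g h s t - phi g h s u
      = (phi g h (slp g h e) t - phi g h (slp g h e) u) + (s - slp g h e) * (g u - g t) := by
    unfold phi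
    ring
  rcases lt_or_eq_of_le hle with hlt | heq
  · have h3 : 0 < (s - slp g h e) * (g u - g t) := mul_pos (by linarith) (by linarith)
    linarith
  · have h3 : (s - slp g h e) * (g u - g t) = 0 := by
      rw [← heq]
      ring
    have h4 : phi g h (slp g h e) u < phi g h (slp g h e) t := by
      by_cases hta : t = e.1
      · have hub : u ≠ e.2 := by
          rintro rfl
          have := he.lt
          rw [← hta, heq] at this
          exact lt_irrefl _ this
        have := topSet_below hdet hgp he hu hnt hub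
        rw [hta]
        exact this
      · have := topSet_above hdet he ht hta
        linarith
    linarith

/-- Height difference in terms of the slope of a pair. -/
lemma phi_sub_phi {u t : ℝ × ℝ} (hut : g u < g t) (s : ℝ) :
    phi g h s t - phi g h s u = (g t - g u) * (slp g h (u, t) - s) := by
  have hs : slp g h (u, t) * (g t - g u) = h t - h u := by
    unfold slp
    simp only
    field_simp [sub_ne_zero.2 (ne_of_gt hut)]
  unfold phi
  linear_combination - hs

include hdet in
/-- The next rightward `k`-edge after `e`, as the lower bitangent of the top set of `e`. -/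
lemma next_edge {P : Finset (ℝ × ℝ)} (hgp : GeneralPosition P) {k : ℕ}
    {e f : (ℝ × ℝ) × (ℝ × ℝ)} (he : RightEdge g P k e) (hf : RightEdge g P k f)
    (hlt : slp g h e < slp g h f) :
    ∃ u t, u ∈ P ∧ u ∉ topSet P e ∧ t ∈ topSet P e ∧ RightEdge g P k (u, t) ∧
      slp g h e < slp g h (u, t) ∧ slp g h (u, t) ≤ slp g h f := by
  classical
  set T := topSet P e with hT
  have hTsub : T ⊆ P := topSet_subset he
  have hTcard : T.card = k + 1 := topSet_card he
  set Pairs := ((P \ T) ×ˢ T).filter (fun p => g p.1 < g p.2) with hPairs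
  have hPairs_ne : Pairs.Nonempty := by
    by_contra hemp
    rw [Finset.not_nonempty_iff_eq_empty] at hemp
    refine no_edge_of_separated hdet hTsub hTcard ?_ hf
    intro t ht u hu hnt
    apply sep_of_le hdet hgp he hlt ht hu hnt
    by_contra hcon
    have : (u, t) ∈ Pairs := Finset.mem_filter.2 ⟨Finset.mem_product.2
      ⟨Finset.mem_sdiff.2 ⟨hu, hnt⟩, ht⟩, not_le.1 hcon⟩
    rw [hemp] at this
    simp at this
  obtain ⟨⟨u₀, t₀⟩, hmem, hmin⟩ := Finset.exists_min_image Pairs (slp g h) hPairs_ne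
  have hmem' := Finset.mem_filter.1 hmem
  have hprod := Finset.mem_product.1 hmem'.1
  have hu₀ : u₀ ∈ P \ T := hprod.1
  have ht₀ : t₀ ∈ T := hprod.2
  have hlt₀ : g u₀ < g t₀ := hmem'.2
  have hu₀P : u₀ ∈ P := (Finset.mem_sdiff.1 hu₀).1
  have hu₀T : u₀ ∉ T := (Finset.mem_sdiff.1 hu₀).2
  set s₀ := slp g h (u₀, t₀) with hs₀
  have hne₀ : u₀ ≠ t₀ := fun h0 => hu₀T (h0 ▸ ht₀)
  -- the slope increases
  have hs₀gt : slp g h e < s₀ := by
    have h1 : phi g h (slp g h e) u₀ < phi g h (slp g h e) t₀ := by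
      by_cases hta : t₀ = e.1
      · have hub : u₀ ≠ e.2 := by
          rintro rfl
          have := he.lt
          rw [← hta] at this
          exact absurd this (not_lt.2 hlt₀.le)
        have h2 := topSet_below hdet hgp he hu₀P hu₀T hub
        rw [hta]
        exact h2
      · have h2 := topSet_above hdet he ht₀ hta
        have h3 := topSet_below_le hdet he hu₀P hu₀T
        linarith
    have h2 := phi_sub_phi (h := h) hlt₀ (slp g h e)
    have h3 : 0 < (g t₀ - g u₀) * (s₀ - slp g h e) := by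
      rw [hs₀, ← h2]
      linarith
    have h4 := (mul_pos_iff_of_pos_left (by linarith : 0 < g t₀ - g u₀)).1 h3
    linarith
  -- weak separation at `s₀`
  have hsep₀ : ∀ t ∈ T, ∀ u ∈ P, u ∉ T → phi g h s₀ u ≤ phi g h s₀ t := by
    intro t ht u hu hnt
    by_cases hle : g t ≤ g u
    · exact (sep_of_le hdet hgp he hs₀gt ht hu hnt hle).le
    · have hlt' : g u < g t := not_le.1 hle
      have hm := hmin (u, t) (Finset.mem_filter.2 ⟨Finset.mem_product.2
        ⟨Finset.mem_sdiff.2 ⟨hu, hnt⟩, ht⟩, hlt'⟩)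
      have h2 := phi_sub_phi (h := h) hlt' s₀
      have h3 : 0 ≤ (g t - g u) * (slp g h (u, t) - s₀) :=
        mul_nonneg (by linarith) (by linarith)
      linarith
  -- the left side of the new edge
  have hphi₀ : phi g h s₀ t₀ = phi g h s₀ u₀ := phi_snd_eq (g := g) (h := h) hlt₀
  have hleft : leftOf P u₀ t₀ = T.erase t₀ := by
    ext r
    simp only [leftOf, Finset.mem_filter, Finset.mem_erase]
    constructor
    · rintro ⟨hr, hd⟩
      have h1 := (det_pos_iff hdet hlt₀ r).1 hd
      rw [← hs₀] at h1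
      have hrt : r ≠ t₀ := by
        rintro rfl
        rw [hphi₀] at h1
        exact lt_irrefl _ h1
      refine ⟨hrt, ?_⟩
      by_contra hrT
      have := hsep₀ t₀ ht₀ r hr hrT
      rw [hphi₀] at this
      linarith
    · rintro ⟨hrt, hrT⟩
      have hrP := hTsub hrT
      refine ⟨hrP, ?_⟩
      have hru : r ≠ u₀ := fun h0 => hu₀T (h0 ▸ hrT)
      have hne : det u₀ t₀ r ≠ 0 := hgp u₀ hu₀P t₀ (hTsub ht₀) r hrP hne₀ (Ne.symm hru) (Ne.symm hrt)
      have h2 := hsep₀ r hrT u₀ hu₀P hu₀T
      have h3 : 0 ≤ det u₀ t₀ r := by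
        rw [det_eq_phi hdet hlt₀ r, ← hs₀]
        exact mul_nonneg (by linarith) (by linarith)
      exact lt_of_le_of_ne h3 (Ne.symm hne)
  have hRE : RightEdge g P k (u₀, t₀) := by
    refine ⟨hu₀P, hTsub ht₀, hlt₀, ?_⟩
    simp only
    rw [hleft, Finset.card_erase_of_mem ht₀, hTcard]
    rfl
  refine ⟨u₀, t₀, hu₀P, hu₀T, ht₀, hRE, hs₀gt, ?_⟩
  -- minimality against `f`
  by_contra hcon
  have hlt2 : slp g h f < s₀ := not_le.1 hcon
  refine no_edge_of_separated hdet hTsub hTcard ?_ hf
  intro t ht u hu hnt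
  by_cases hle : g t ≤ g u
  · exact sep_of_le hdet hgp he hlt ht hu hnt hle
  · have hlt' : g u < g t := not_le.1 hle
    have hm := hmin (u, t) (Finset.mem_filter.2 ⟨Finset.mem_product.2
      ⟨Finset.mem_sdiff.2 ⟨hu, hnt⟩, ht⟩, hlt'⟩)
    have h2 := phi_sub_phi (h := h) hlt' (slp g h f)
    have h3 : 0 < (g t - g u) * (slp g h (u, t) - slp g h f) :=
      mul_pos (by linarith) (by linarith)
    linarith

include hdet in
/-- The ear inequality for an edge and the lower bitangent of its top set. -/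
lemma ear_ineq {P : Finset (ℝ × ℝ)} {k : ℕ} {δ : ℝ}
    (harea : ∀ a ∈ P, ∀ b ∈ P, ∀ c ∈ P, a ≠ b → a ≠ c → b ≠ c → δ ≤ |det a b c|)
    {e : (ℝ × ℝ) × (ℝ × ℝ)} (he : RightEdge g P k e)
    {u t : ℝ × ℝ} (hu : u ∈ P) (hnt : u ∉ topSet P e) (ht : t ∈ topSet P e)
    (hut : g u < g t) :
    δ ≤ (g e.2 - g e.1) * (g t - g u) * (slp g h (u, t) - slp g h e) := by
  have hlt := he.lt
  have hs1 : slp g h e * (g e.2 - g e.1) = h e.2 - h e.1 := by
    unfold slp
    field_simp [sub_ne_zero.2 (ne_of_gt hlt)]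
  have hs2 : slp g h (u, t) * (g t - g u) = h t - h u := by
    unfold slp
    simp only
    field_simp [sub_ne_zero.2 (ne_of_gt hut)]
  have hid : (g e.2 - g e.1) * (g t - g u) * (slp g h (u, t) - slp g h e)
      = det e.1 e.2 t - det e.1 e.2 u := by
    rw [hdet e.1 e.2 t, hdet e.1 e.2 u]
    linear_combination (g e.2 - g e.1) * hs2 - (g t - g u) * hs1
  rw [hid]
  have hab : e.1 ≠ e.2 := fun h0 => by
    rw [h0] at hlt
    exact lt_irrefl _ hlt
  have htP : t ∈ P := topSet_subset he ht
  -- `t` is on the left or is the start; `u` is on the right or is the end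
  have hte : 0 ≤ det e.1 e.2 t := by
    rcases Finset.mem_insert.1 ht with rfl | ht'
    · rw [det_self_left]
    · exact (Finset.mem_filter.1 ht').2.le
  have hue : det e.1 e.2 u ≤ 0 := by
    have h1 : ¬ 0 < det e.1 e.2 u := fun hd => hnt (Finset.mem_insert_of_mem
      (Finset.mem_filter.2 ⟨hu, hd⟩))
    exact not_lt.1 h1
  by_cases hta : t = e.1
  · have hub : u ≠ e.2 := by
      rintro rfl
      rw [← hta] at hlt
      exact absurd hlt (not_lt.2 hut.le)
    have hua : u ≠ e.1 := fun h0 => hnt (h0 ▸ Finset.mem_insert_self _ _)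
    have h1 := harea e.1 he.fst_mem e.2 he.snd_mem u hu hab (Ne.symm hua) (Ne.symm hub)
    rw [abs_of_nonpos hue] at h1
    linarith
  · have htb : t ≠ e.2 := by
      intro h0
      have hmem : t ∈ leftOf P e.1 e.2 := by
        rcases Finset.mem_insert.1 ht with h1 | h1
        · exact absurd h1 hta
        · exact h1
      have h2 := (Finset.mem_filter.1 hmem).2
      rw [h0, det_self_right] at h2
      exact lt_irrefl _ h2
    have h1 := harea e.1 he.fst_mem e.2 he.snd_mem t htP hab (Ne.symm hta) (Ne.symm htb)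
    rw [abs_of_nonneg hte] at h1
    linarith

/-- The flat class of rightward `k`-edges in the frame `(g, h)`. -/
noncomputable def flatClass (g h : ℝ × ℝ → ℝ) (P : Finset (ℝ × ℝ)) (k : ℕ) :
    Finset ((ℝ × ℝ) × (ℝ × ℝ)) :=
  (kEdges P k).filter (fun e => g e.1 < g e.2 ∧ |h e.2 - h e.1| ≤ g e.2 - g e.1)

lemma flatClass_rightEdge {P : Finset (ℝ × ℝ)} {k : ℕ} {e : (ℝ × ℝ) × (ℝ × ℝ)}
    (he : e ∈ flatClass g h P k) : RightEdge g P k e := by
  have h1 := Finset.mem_filter.1 he
  have h2 := Finset.mem_filter.1 h1.1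
  have h3 := Finset.mem_offDiag.1 h2.1
  exact ⟨h3.1, h3.2.1, h1.2.1, h2.2⟩

lemma flat_slope_bounds {e : (ℝ × ℝ) × (ℝ × ℝ)} (hlt : g e.1 < g e.2)
    (hfl : |h e.2 - h e.1| ≤ g e.2 - g e.1) : |slp g h e| ≤ 1 := by
  unfold slp
  rw [abs_div, abs_of_pos (by linarith : 0 < g e.2 - g e.1)]
  exact (div_le_one (by linarith)).2 hfl

lemma flat_of_slope {e : (ℝ × ℝ) × (ℝ × ℝ)} (hlt : g e.1 < g e.2)
    (hs : |slp g h e| ≤ 1) : |h e.2 - h e.1| ≤ g e.2 - g e.1 := by
  unfold slp at hs
  rw [abs_div, abs_of_pos (by linarith : 0 < g e.2 - g e.1)] at hs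
  exact (div_le_one (by linarith)).1 hs

include hdet in
/-- The number of flat rightward `k`-edges, given a bound on their total width. -/
theorem flatClass_bound {P : Finset (ℝ × ℝ)} (hgp : GeneralPosition P) {k : ℕ} {δ A : ℝ}
    (harea : ∀ a ∈ P, ∀ b ∈ P, ∀ c ∈ P, a ≠ b → a ≠ c → b ≠ c → δ ≤ |det a b c|)
    (hδ : 0 < δ) (hA : 0 < A)
    (hsum : ∑ e ∈ flatClass g h P k, (g e.2 - g e.1) ≤ A) :
    (((flatClass g h P k).card : ℝ) - 1) ^ 3 * δ ≤ 2 * A ^ 2 := by
  have hbound := ear_bound (slp g h) (fun e => g e.2 - g e.1) (lo := -1) (hi := 1) hδ hA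
    (by norm_num) (flatClass g h P k)
    (by
      intro e he f hf hs
      exact right_edge_unique hdet hgp (flatClass_rightEdge (Finset.mem_coe.1 he))
        (flatClass_rightEdge (Finset.mem_coe.1 hf)) hs)
    (by
      intro e he
      have := (flatClass_rightEdge (g := g) (h := h) he).lt
      linarith)
    (by
      intro e he
      have h1 := (Finset.mem_filter.1 he).2
      exact (abs_le.1 (flat_slope_bounds h1.1 h1.2)).1)
    (by
      intro e he
      have h1 := (Finset.mem_filter.1 he).2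
      exact (abs_le.1 (flat_slope_bounds h1.1 h1.2)).2)
    (by
      intro e he f hf hlt hno
      have hRe := flatClass_rightEdge he
      have hRf := flatClass_rightEdge hf
      obtain ⟨u, t, hu, hnt, ht, hRE, h1, h2⟩ := next_edge hdet hgp hRe hRf hlt
      have hfl := (Finset.mem_filter.1 hf).2
      have hfle := (Finset.mem_filter.1 he).2
      have hslf := abs_le.1 (flat_slope_bounds hfl.1 hfl.2)
      have hsle := abs_le.1 (flat_slope_bounds hfle.1 hfle.2)
      have hmemC : (u, t) ∈ flatClass g h P k := by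
        refine Finset.mem_filter.2 ⟨Finset.mem_filter.2 ⟨Finset.mem_offDiag.2
          ⟨hRE.fst_mem, hRE.snd_mem, ?_⟩, hRE.card⟩, hRE.lt, ?_⟩
        · intro h0
          have := hRE.lt
          have h0' : u = t := h0
          simp only at this
          rw [h0'] at this
          exact lt_irrefl _ this
        · apply flat_of_slope hRE.lt
          rw [abs_le]
          constructor <;> linarith
      have heq : slp g h (u, t) = slp g h f := by
        apply le_antisymm h2
        by_contra hcon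
        exact hno _ hmemC ⟨h1, not_le.1 hcon⟩
      have hff : (u, t) = f := right_edge_unique hdet hgp hRE hRf heq
      have hear := ear_ineq hdet harea hRe hu hnt ht hRE.lt
      rw [← hff]
      exact hear)
    hsum
  have h3 : (1 - (-1 : ℝ)) * A ^ 2 = 2 * A ^ 2 := by ring
  rwa [h3] at hbound

include hdet in
/-- A witness for the ear inequality: a third point close to the line of `e`. -/
lemma ear_witness {P : Finset (ℝ × ℝ)} {k : ℕ}
    {e : (ℝ × ℝ) × (ℝ × ℝ)} (he : RightEdge g P k e)
    {u t : ℝ × ℝ} (hu : u ∈ P) (hnt : u ∉ topSet P e) (ht : t ∈ topSet P e)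
    (hut : g u < g t) :
    ∃ w ∈ P, w ≠ e.1 ∧ w ≠ e.2 ∧
      |det e.1 e.2 w| ≤ (g e.2 - g e.1) * (g t - g u) * (slp g h (u, t) - slp g h e) := by
  have hlt := he.lt
  have hs1 : slp g h e * (g e.2 - g e.1) = h e.2 - h e.1 := by
    unfold slp
    field_simp [sub_ne_zero.2 (ne_of_gt hlt)]
  have hs2 : slp g h (u, t) * (g t - g u) = h t - h u := by
    unfold slp
    simp only
    field_simp [sub_ne_zero.2 (ne_of_gt hut)]
  have hid : (g e.2 - g e.1) * (g t - g u) * (slp g h (u, t) - slp g h e)
      = det e.1 e.2 t - det e.1 e.2 u := by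
    rw [hdet e.1 e.2 t, hdet e.1 e.2 u]
    linear_combination (g e.2 - g e.1) * hs2 - (g t - g u) * hs1
  rw [hid]
  have htP : t ∈ P := topSet_subset he ht
  have hte : 0 ≤ det e.1 e.2 t := by
    rcases Finset.mem_insert.1 ht with rfl | ht'
    · rw [det_self_left]
    · exact (Finset.mem_filter.1 ht').2.le
  have hue : det e.1 e.2 u ≤ 0 := by
    have h1 : ¬ 0 < det e.1 e.2 u := fun hd => hnt (Finset.mem_insert_of_mem
      (Finset.mem_filter.2 ⟨hu, hd⟩))
    exact not_lt.1 h1
  by_cases hta : t = e.1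
  · have hub : u ≠ e.2 := by
      rintro rfl
      rw [← hta] at hlt
      exact absurd hlt (not_lt.2 hut.le)
    have hua : u ≠ e.1 := fun h0 => hnt (h0 ▸ Finset.mem_insert_self _ _)
    refine ⟨u, hu, hua, hub, ?_⟩
    rw [abs_of_nonpos hue]
    linarith
  · have htb : t ≠ e.2 := by
      intro h0
      have hmem : t ∈ leftOf P e.1 e.2 := by
        rcases Finset.mem_insert.1 ht with h1 | h1
        · exact absurd h1 hta
        · exact h1
      have h2 := (Finset.mem_filter.1 hmem).2
      rw [h0, det_self_right] at h2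
      exact lt_irrefl _ h2
    refine ⟨t, htP, hta, htb, ?_⟩
    rw [abs_of_nonneg hte]
    linarith

include hdet in
/-- The number of flat rightward `k`-edges, with exceptional edges coming from small triangles. -/
theorem flatClass_bound_bad {P : Finset (ℝ × ℝ)} (hgp : GeneralPosition P) {k : ℕ} {Δ A : ℝ}
    (hΔ : 0 < Δ) (hA : 0 < A)
    (hsum : ∑ e ∈ flatClass g h P k, (g e.2 - g e.1) ≤ A) :
    (((flatClass g h P k).card : ℝ) - 1 - ((smallTriples P Δ).card : ℝ)) ^ 3 * (2 * Δ)
      ≤ 2 * A ^ 2 := by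
  classical
  set C := flatClass g h P k with hC
  set B := C.filter (fun e => ∃ w ∈ P, w ≠ e.1 ∧ w ≠ e.2 ∧ |det e.1 e.2 w| < 2 * Δ) with hB
  have hbound := ear_bound_bad (slp g h) (fun e => g e.2 - g e.1) B (δ := 2 * Δ) (lo := -1) (hi := 1)
    (by linarith) hA (by norm_num) C
    (by
      intro e he f hf hs
      exact right_edge_unique hdet hgp (flatClass_rightEdge (Finset.mem_coe.1 he))
        (flatClass_rightEdge (Finset.mem_coe.1 hf)) hs)
    (by
      intro e he
      have := (flatClass_rightEdge (g := g) (h := h) he).lt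
      linarith)
    (by
      intro e he
      have h1 := (Finset.mem_filter.1 he).2
      exact (abs_le.1 (flat_slope_bounds h1.1 h1.2)).1)
    (by
      intro e he
      have h1 := (Finset.mem_filter.1 he).2
      exact (abs_le.1 (flat_slope_bounds h1.1 h1.2)).2)
    (by
      intro e he f hf hlt hno
      have hRe := flatClass_rightEdge he
      have hRf := flatClass_rightEdge hf
      obtain ⟨u, t, hu, hnt, ht, hRE, h1, h2⟩ := next_edge hdet hgp hRe hRf hlt
      have hfl := (Finset.mem_filter.1 hf).2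
      have hfle := (Finset.mem_filter.1 he).2
      have hslf := abs_le.1 (flat_slope_bounds hfl.1 hfl.2)
      have hsle := abs_le.1 (flat_slope_bounds hfle.1 hfle.2)
      have hmemC : (u, t) ∈ flatClass g h P k := by
        refine Finset.mem_filter.2 ⟨Finset.mem_filter.2 ⟨Finset.mem_offDiag.2
          ⟨hRE.fst_mem, hRE.snd_mem, ?_⟩, hRE.card⟩, hRE.lt, ?_⟩
        · intro h0
          have := hRE.lt
          have h0' : u = t := h0
          simp only at this
          rw [h0'] at this
          exact lt_irrefl _ this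
        · apply flat_of_slope hRE.lt
          rw [abs_le]
          constructor <;> linarith
      have heq : slp g h (u, t) = slp g h f := by
        apply le_antisymm h2
        by_contra hcon
        exact hno _ hmemC ⟨h1, not_le.1 hcon⟩
      have hff : (u, t) = f := right_edge_unique hdet hgp hRE hRf heq
      obtain ⟨w, hw, hw1, hw2, hwle⟩ := ear_witness hdet hRe hu hnt ht hRE.lt
      by_cases hsmall : |det e.1 e.2 w| < 2 * Δ
      · exact Or.inl (Finset.mem_filter.2 ⟨he, w, hw, hw1, hw2, hsmall⟩)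
      · right
        rw [← hff]
        exact le_trans (not_lt.1 hsmall) hwle)
    hsum
  have hBT : B.card ≤ (smallTriples P Δ).card := by
    apply Finset.card_le_card_of_surjOn (fun t => t.1)
    intro e he
    have he' := Finset.mem_filter.1 (Finset.mem_coe.1 he)
    obtain ⟨w, hw, hw1, hw2, hsmall⟩ := he'.2
    have hR := flatClass_rightEdge he'.1
    have hab : e.1 ≠ e.2 := fun h0 => by
      have := hR.lt
      rw [h0] at this
      exact lt_irrefl _ this
    refine ⟨((e.1, e.2), w), ?_, rfl⟩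
    refine Finset.mem_filter.2 ⟨Finset.mem_product.2 ⟨Finset.mem_product.2 ⟨hR.fst_mem, hR.snd_mem⟩,
      hw⟩, hab, Ne.symm hw1, Ne.symm hw2, ?_⟩
    unfold triangleArea
    simp only
    linarith
  have hBTR : (B.card : ℝ) ≤ ((smallTriples P Δ).card : ℝ) := by exact_mod_cast hBT
  have hmono : ((C.card : ℝ) - 1 - ((smallTriples P Δ).card : ℝ)) ^ 3
      ≤ ((C.card : ℝ) - 1 - (B.card : ℝ)) ^ 3 := by
    have : Odd 3 := by decide
    exact this.strictMono_pow.monotone (by linarith)
  have h3 : (1 - (-1 : ℝ)) * A ^ 2 = 2 * A ^ 2 := by ring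
  rw [h3] at hbound
  exact le_trans (mul_le_mul_of_nonneg_right hmono (by linarith)) hbound

end Frame

end Vale.Agent.Lib.P065
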