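import Vale.Agent.Lib.P065.AreaMain

/-!
The link with the Heilbronn triangle problem.
-/

open Finset

namespace Vale.Agent.Lib.P065

/-- Every set of at least three points in the unit square has a triangle whose area is bounded in
terms of the number of `k`-sets and of halving lines. -/
theorem heilbronn_link (P : Finset (ℝ × ℝ))
    (hsq : ∀ p ∈ P, 0 ≤ p.1 ∧ p.1 ≤ 1 ∧ 0 ≤ p.2 ∧ p.2 ≤ 1) (hcard : 3 ≤ P.card) :
    ∃ a ∈ P, ∃ b ∈ P, ∃ c ∈ P, a ≠ b ∧ a ≠ c ∧ b ≠ c ∧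
      (∀ k, 1 ≤ k → k < P.card →
        (((kSets P k).card : ℝ) - 4) ^ 3 * triangleArea a b c ≤ 256 * (k : ℝ) ^ 2) ∧
      (((halvingLines P).card : ℝ) - 2) ^ 3 * triangleArea a b c ≤ 8 * (P.card : ℝ) ^ 2 := by
  classical
  set T := ((P ×ˢ P) ×ˢ P).filter
    (fun t => t.1.1 ≠ t.1.2 ∧ t.1.1 ≠ t.2 ∧ t.1.2 ≠ t.2) with hT
  have hne : T.Nonempty := by
    obtain ⟨a, ha, b, hb, c, hc, hab, hac, hbc⟩ := Finset.two_lt_card.1 (by omega : 2 < P.card)
    exact ⟨((a, b), c), Finset.mem_filter.2 ⟨Finset.mem_product.2 ⟨Finset.mem_product.2 ⟨ha, hb⟩, hc⟩,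
      hab, hac, hbc⟩⟩
  obtain ⟨⟨⟨a, b⟩, c⟩, hmem, hmin⟩ := Finset.exists_min_image T
    (fun t => triangleArea t.1.1 t.1.2 t.2) hne
  have hmem' := Finset.mem_filter.1 hmem
  have hprod := Finset.mem_product.1 hmem'.1
  have hprod2 := Finset.mem_product.1 hprod.1
  refine ⟨a, hprod2.1, b, hprod2.2, c, hprod.2, hmem'.2.1, hmem'.2.2.1, hmem'.2.2.2, ?_⟩
  have hnn : 0 ≤ triangleArea a b c := by
    unfold triangleArea
    positivity
  rcases hnn.eq_or_lt with h0 | hpos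
  · rw [← h0]
    simp only [mul_zero]
    refine ⟨?_, by positivity⟩
    intro k _ _
    positivity
  · exact square_main P hsq (triangleArea a b c) hpos (by
      intro x hx y hy z hz hxy hxz hyz
      exact hmin ((x, y), z) (Finset.mem_filter.2 ⟨Finset.mem_product.2
        ⟨Finset.mem_product.2 ⟨hx, hy⟩, hz⟩, hxy, hxz, hyz⟩))

end Vale.Agent.Lib.P065
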