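import Vale.Agent.Lib.P065.Layers

/-!
From `k`-sets and halving lines to directed `k`-edges.
-/

open Finset

namespace Vale.Agent.Lib.P065

/-- Every separated subset has an inner bitangent: a directed edge whose left side is exactly the
rest of the subset. -/
lemma exists_edge_of_separated {P S : Finset (ℝ × ℝ)} (hgp : GeneralPosition P)
    (hS : IsSeparated P S) (hne : S.Nonempty) (hne' : (P \ S).Nonempty) :
    ∃ s t, s ∈ S ∧ t ∈ P \ S ∧ leftOf P s t = S.erase s := by
  obtain ⟨hsub, a, b, c, hab, h1, h2⟩ := hS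
  set g : ℝ × ℝ → ℝ := fun p => a * p.1 + b * p.2 with hg
  set h : ℝ × ℝ → ℝ := fun p => -b * p.1 + a * p.2 with hh
  have hcoef : 0 < a * a + b * b := by
    rcases hab with h0 | h0
    · have := mul_self_pos.2 h0
      nlinarith [mul_self_nonneg b]
    · have := mul_self_pos.2 h0
      nlinarith [mul_self_nonneg a]
  have hid : ∀ s t r : ℝ × ℝ, (a * a + b * b) * det s t r
      = (g t - g s) * (h r - h s) - (h t - h s) * (g r - g s) := by
    intro s t r
    simp only [hg, hh, det]
    ring
  have hpos : ∀ s ∈ S, ∀ t ∈ P \ S, 0 < g t - g s := by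
    intro s hs t ht
    have e1 := h1 s hs
    have e2 := h2 t ht
    simp only [hg]
    linarith
  obtain ⟨⟨s, t⟩, hst, hmax⟩ := Finset.exists_max_image (S ×ˢ (P \ S))
    (fun e : (ℝ × ℝ) × (ℝ × ℝ) => (h e.2 - h e.1) / (g e.2 - g e.1)) (hne.product hne')
  have hs : s ∈ S := (Finset.mem_product.1 hst).1
  have ht : t ∈ P \ S := (Finset.mem_product.1 hst).2
  have htP : t ∈ P := (Finset.mem_sdiff.1 ht).1
  have htS : t ∉ S := (Finset.mem_sdiff.1 ht).2
  have hsP : s ∈ P := hsub hs
  have hst' : s ≠ t := fun e => htS (e ▸ hs)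
  refine ⟨s, t, hs, ht, ?_⟩
  ext r
  simp only [leftOf, Finset.mem_filter, Finset.mem_erase]
  constructor
  · rintro ⟨hr, hd⟩
    have hrs : r ≠ s := by
      rintro rfl
      rw [det_self_left] at hd
      exact lt_irrefl _ hd
    refine ⟨hrs, ?_⟩
    by_contra hrS
    have hr' : r ∈ P \ S := Finset.mem_sdiff.2 ⟨hr, hrS⟩
    have hm := hmax (s, r) (Finset.mem_product.2 ⟨hs, hr'⟩)
    simp only at hm
    rw [div_le_div_iff₀ (hpos s hs r hr') (hpos s hs t ht)] at hm
    have := hid s t r
    have h3 : (a * a + b * b) * det s t r ≤ 0 := by rw [this]; nlinarith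
    have h4 := mul_pos hcoef hd
    linarith
  · rintro ⟨hrs, hr⟩
    have hrP : r ∈ P := hsub hr
    refine ⟨hrP, ?_⟩
    have hrt : r ≠ t := fun e => htS (e ▸ hr)
    have hne0 : det s t r ≠ 0 := hgp s hsP t htP r hrP hst' (Ne.symm hrs) (Ne.symm hrt)
    have hm := hmax (r, t) (Finset.mem_product.2 ⟨hr, ht⟩)
    simp only at hm
    rw [div_le_div_iff₀ (hpos r hr t ht) (hpos s hs t ht)] at hm
    have h3 : 0 ≤ (a * a + b * b) * det s t r := by
      rw [hid s t r]
      nlinarith
    have h4 : 0 ≤ det s t r := by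
      by_contra hneg
      have : det s t r < 0 := not_le.1 hneg
      have := mul_neg_of_pos_of_neg hcoef this
      linarith
    exact lt_of_le_of_ne h4 (Ne.symm hne0)

/-- The number of `k`-sets is at most the number of directed `(k-1)`-edges. -/
theorem kSets_card_le {P : Finset (ℝ × ℝ)} (hgp : GeneralPosition P) {k : ℕ} (hk : 1 ≤ k)
    (hk' : k < P.card) : (kSets P k).card ≤ (kEdges P (k - 1)).card := by
  classical
  apply Finset.card_le_card_of_surjOn
    (fun e : (ℝ × ℝ) × (ℝ × ℝ) => insert e.1 (leftOf P e.1 e.2))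
  intro S hS
  have hS' : S ∈ kSets P k := hS
  unfold kSets at hS'
  rw [Finset.mem_filter, Finset.mem_powersetCard] at hS'
  obtain ⟨⟨hsub, hcard⟩, hsep⟩ := hS'
  have hne : S.Nonempty := by
    rw [← Finset.card_pos]
    omega
  have hne' : (P \ S).Nonempty := by
    rw [← Finset.card_pos, Finset.card_sdiff_of_subset hsub]
    omega
  obtain ⟨s, t, hs, ht, hl⟩ := exists_edge_of_separated hgp hsep hne hne'
  refine ⟨(s, t), ?_, ?_⟩
  · have hmem : (s, t) ∈ kEdges P (k - 1) := by
      unfold kEdges
      rw [Finset.mem_filter, Finset.mem_offDiag]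
      refine ⟨⟨hsub hs, (Finset.mem_sdiff.1 ht).1, ?_⟩, ?_⟩
      · intro e
        have e' : s = t := e
        exact (Finset.mem_sdiff.1 ht).2 (e' ▸ hs)
      · simp only
        rw [hl, Finset.card_erase_of_mem hs, hcard]
    exact hmem
  · simp only
    rw [hl, Finset.insert_erase hs]

/-- Twice the number of halving lines is at most the number of directed `k`-edges, when
`2 * k + 2 = card P`. -/
theorem halvingLines_card_le (P : Finset (ℝ × ℝ)) {k : ℕ} (hk : 2 * k + 2 = P.card) :
    2 * (halvingLines P).card ≤ (kEdges P k).card := by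
  classical
  set E := P.offDiag.filter (fun e : (ℝ × ℝ) × (ℝ × ℝ) =>
    2 * (leftOf P e.1 e.2).card + 2 = P.card ∧ 2 * (rightOf P e.1 e.2).card + 2 = P.card) with hE
  have hsub : E ⊆ kEdges P k := by
    intro e he
    rw [hE, Finset.mem_filter] at he
    unfold kEdges
    rw [Finset.mem_filter]
    exact ⟨he.1, by omega⟩
  refine le_trans ?_ (Finset.card_le_card hsub)
  have hcount : E.card = ∑ y ∈ E.image (fun e => s(e.1, e.2)),
      (E.filter (fun e => s(e.1, e.2) = y)).card := Finset.card_eq_sum_card_image _ _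
  have hswap : ∀ a b : ℝ × ℝ, leftOf P b a = rightOf P a b := by
    intro a b
    unfold leftOf rightOf
    apply Finset.filter_congr
    intro r _
    rw [det_swap]
    constructor <;> intro h <;> linarith
  have hswap' : ∀ a b : ℝ × ℝ, rightOf P b a = leftOf P a b := by
    intro a b
    unfold leftOf rightOf
    apply Finset.filter_congr
    intro r _
    rw [det_swap]
    constructor <;> intro h <;> linarith
  have hfib : ∀ y ∈ E.image (fun e => s(e.1, e.2)),
      2 ≤ (E.filter (fun e => s(e.1, e.2) = y)).card := by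
    intro y hy
    obtain ⟨⟨a, b⟩, he, rfl⟩ := Finset.mem_image.1 hy
    have he' := he
    rw [hE, Finset.mem_filter, Finset.mem_offDiag] at he'
    obtain ⟨⟨ha, hb, hab⟩, h1, h2⟩ := he'
    simp only at ha hb hab h1 h2
    have hba : (b, a) ∈ E := by
      rw [hE, Finset.mem_filter, Finset.mem_offDiag]
      refine ⟨⟨hb, ha, Ne.symm hab⟩, ?_, ?_⟩
      · simp only
        rw [hswap]
        exact h2
      · simp only
        rw [hswap']
        exact h1
    have hpair : ({(a, b), (b, a)} : Finset ((ℝ × ℝ) × (ℝ × ℝ)))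
        ⊆ E.filter (fun e => s(e.1, e.2) = s(a, b)) := by
      intro e hemem
      rw [Finset.mem_insert, Finset.mem_singleton] at hemem
      rw [Finset.mem_filter]
      rcases hemem with rfl | rfl
      · exact ⟨he, rfl⟩
      · exact ⟨hba, Sym2.eq_swap⟩
    have hc2 : ({(a, b), (b, a)} : Finset ((ℝ × ℝ) × (ℝ × ℝ))).card = 2 := by
      apply Finset.card_pair
      intro h
      exact hab (congrArg Prod.fst h)
    calc 2 = _ := hc2.symm
      _ ≤ _ := Finset.card_le_card hpair
  have hfinal := Finset.card_nsmul_le_sum _ _ 2 hfib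
  rw [← hcount] at hfinal
  have hdef : halvingLines P = E.image (fun e => s(e.1, e.2)) := rfl
  rw [hdef]
  simpa [mul_comm] using hfinal

/-- Main theorem: bounds for `k`-sets and halving lines in terms of convex layers. -/
theorem layers_main (P : Finset (ℝ × ℝ)) (hgp : GeneralPosition P) (c : ℕ)
    (hc : (peel^[c]) P = ∅) :
    (∀ k, 1 ≤ k → k < P.card →
      (kSets P k).card + 2 * ∑ j ∈ Finset.Ico 1 c, ((peel^[j]) P).card + P.card
        ≤ 2 * c * P.card) ∧
    (2 * (halvingLines P).card + 2 * ∑ j ∈ Finset.Ico 1 c, ((peel^[j]) P).card + P.card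
        ≤ 2 * c * P.card) := by
  constructor
  · intro k hk hk'
    have h1 := kSets_card_le hgp hk hk'
    have h2 := kEdges_card_le hgp c hc (k - 1)
    omega
  · by_cases hn : ∃ k, 2 * k + 2 = P.card
    · obtain ⟨k, hk⟩ := hn
      have h1 := halvingLines_card_le P hk
      have h2 := kEdges_card_le hgp c hc k
      omega
    · have hempty : halvingLines P = ∅ := by
        unfold halvingLines
        rw [Finset.image_eq_empty, Finset.filter_eq_empty_iff]
        intro e _ h
        exact hn ⟨_, h.1⟩
      rw [hempty]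
      have h2 := kEdges_card_le hgp c hc 0
      simp only [Finset.card_empty, mul_zero, zero_add]
      omega

end Vale.Agent.Lib.P065
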