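import Vale.Agent.Lib.P065.Local

/-!
Counting directed `k`-edges using convex layers.
-/

open Finset

namespace Vale.Agent.Lib.P065

section Weight

variable {α : Type*} [DecidableEq α]

/-- Abstract weighted counting lemma: if every vertex has signed degree at most two, relative to a
depth function, then the number of edges is at most the total weight. -/
theorem weight_count (P : Finset α) (E : α → α → Prop) [DecidableRel E] (f : α → ℕ) (c : ℕ)
    (hf : ∀ v ∈ P, f v < c)
    (hT : ∀ v ∈ P, (∑ q ∈ P.erase v,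
      ((if E v q then (1:ℤ) else 0) + (if E q v then 1 else 0))
        * (if f v ≤ f q then 1 else -1)) ≤ 2) :
    ((P.offDiag.filter (fun e => E e.1 e.2)).card : ℤ)
      ≤ ∑ v ∈ P, (2 * ((c : ℤ) - f v) - 1) := by
  set w : α → ℤ := fun v => 2 * ((c : ℤ) - f v) - 1 with hw
  have hwpos : ∀ v ∈ P, 0 < w v := by
    intro v hv
    have := hf v hv
    simp only [hw]
    omega
  have h1 : ∑ v ∈ P, w v * (∑ q ∈ P.erase v,
      ((if E v q then (1:ℤ) else 0) + (if E q v then 1 else 0))
        * (if f v ≤ f q then 1 else -1)) ≤ ∑ v ∈ P, w v * 2 := by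
    apply Finset.sum_le_sum
    intro v hv
    exact mul_le_mul_of_nonneg_left (hT v hv) (hwpos v hv).le
  have hmemOff : ∀ p : α × α, p ∈ P.offDiag ↔ p.1 ∈ P ∧ p.2 ∈ P.erase p.1 := by
    intro p
    simp only [Finset.mem_offDiag, Finset.mem_erase]
    constructor
    · rintro ⟨h1, h2, h3⟩
      exact ⟨h1, Ne.symm h3, h2⟩
    · rintro ⟨h1, h3, h2⟩
      exact ⟨h1, h2, Ne.symm h3⟩
  have hmemOff' : ∀ p : α × α, p ∈ P.offDiag ↔ p.2 ∈ P ∧ p.1 ∈ P.erase p.2 := by
    intro p
    simp only [Finset.mem_offDiag, Finset.mem_erase]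
    constructor
    · rintro ⟨h1, h2, h3⟩
      exact ⟨h2, h3, h1⟩
    · rintro ⟨h2, h3, h1⟩
      exact ⟨h1, h2, h3⟩
  have h2 : ∑ v ∈ P, w v * (∑ q ∈ P.erase v,
      ((if E v q then (1:ℤ) else 0) + (if E q v then 1 else 0))
        * (if f v ≤ f q then 1 else -1))
      = ∑ e ∈ P.offDiag, (if E e.1 e.2 then
          w e.1 * (if f e.1 ≤ f e.2 then 1 else -1)
            + w e.2 * (if f e.2 ≤ f e.1 then 1 else -1) else 0) := by
    have e1 : ∑ e ∈ P.offDiag, (if E e.1 e.2 then
          w e.1 * (if f e.1 ≤ f e.2 then 1 else -1)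
            + w e.2 * (if f e.2 ≤ f e.1 then 1 else -1) else 0)
        = ∑ e ∈ P.offDiag, (if E e.1 e.2 then
          w e.1 * (if f e.1 ≤ f e.2 then 1 else -1) else 0)
          + ∑ e ∈ P.offDiag, (if E e.1 e.2 then
            w e.2 * (if f e.2 ≤ f e.1 then 1 else -1) else 0) := by
      rw [← Finset.sum_add_distrib]
      apply Finset.sum_congr rfl
      intro e _
      split_ifs <;> ring
    rw [e1, Finset.sum_finset_product P.offDiag P (fun a => P.erase a) hmemOff
        (f := fun e => if E e.1 e.2 then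
          w e.1 * (if f e.1 ≤ f e.2 then 1 else -1) else 0),
      Finset.sum_finset_product_right P.offDiag P (fun a => P.erase a) hmemOff'
        (f := fun e => if E e.1 e.2 then
          w e.2 * (if f e.2 ≤ f e.1 then 1 else -1) else 0),
      ← Finset.sum_add_distrib]
    apply Finset.sum_congr rfl
    intro v _
    rw [← Finset.sum_add_distrib, Finset.mul_sum]
    apply Finset.sum_congr rfl
    intro q _
    simp only
    by_cases h3 : E v q <;> by_cases h4 : E q v <;> by_cases h5 : f v ≤ f q <;>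
      by_cases h6 : f q ≤ f v <;> simp [h3, h4, h5] <;> ring
  have h3 : (2:ℤ) * ((P.offDiag.filter (fun e => E e.1 e.2)).card : ℤ)
      ≤ ∑ e ∈ P.offDiag, (if E e.1 e.2 then
          w e.1 * (if f e.1 ≤ f e.2 then 1 else -1)
            + w e.2 * (if f e.2 ≤ f e.1 then 1 else -1) else 0) := by
    rw [Finset.card_filter]
    push_cast
    rw [Finset.mul_sum]
    apply Finset.sum_le_sum
    intro e he
    have he' := Finset.mem_offDiag.1 he
    have ha := hf e.1 he'.1
    have hb := hf e.2 he'.2.1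
    by_cases hE : E e.1 e.2
    · simp only [hE, if_true, hw]
      by_cases h4 : f e.1 ≤ f e.2 <;> by_cases h5 : f e.2 ≤ f e.1 <;>
        simp only [h4, h5, if_true, if_false] <;> omega
    · simp [hE]
  have h4 : ∑ v ∈ P, w v * 2 = 2 * ∑ v ∈ P, w v := by
    rw [Finset.mul_sum]
    apply Finset.sum_congr rfl
    intro v _
    ring
  rw [h2] at h1
  rw [h4] at h1
  linarith

end Weight

/-! ### Convex layers -/

lemma peel_subset (S : Finset (ℝ × ℝ)) : peel S ⊆ S := by
  classical
  unfold peel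
  exact Finset.filter_subset _ _

lemma layer_antitone (P : Finset (ℝ × ℝ)) {i j : ℕ} (hij : i ≤ j) :
    (peel^[j]) P ⊆ (peel^[i]) P := by
  induction j, hij using Nat.le_induction with
  | base => exact Finset.Subset.refl _
  | succ j _ ih =>
    rw [Function.iterate_succ_apply']
    exact (peel_subset _).trans ih

/-- Existence of the depth function of the convex layers. -/
lemma exists_depth (P : Finset (ℝ × ℝ)) (c : ℕ) (hc : (peel^[c]) P = ∅) :
    ∃ f : ℝ × ℝ → ℕ, (∀ v ∈ P, f v < c) ∧ (∀ v ∈ P, ∀ j, v ∈ (peel^[j]) P ↔ j ≤ f v) := by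
  classical
  have hex : ∀ v : ℝ × ℝ, ∃ j, v ∉ (peel^[j]) P := fun v => ⟨c, by simp [hc]⟩
  refine ⟨fun v => Nat.find (hex v) - 1, ?_, ?_⟩
  · intro v hv
    have h1 : Nat.find (hex v) ≤ c := Nat.find_min' (hex v) (by simp [hc])
    have h2 : Nat.find (hex v) ≠ 0 := by
      intro h0
      have := Nat.find_spec (hex v)
      rw [h0] at this
      exact this hv
    simp only
    omega
  · intro v hv j
    have h2 : Nat.find (hex v) ≠ 0 := by
      intro h0
      have := Nat.find_spec (hex v)
      rw [h0] at this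
      exact this hv
    simp only
    constructor
    · intro hj
      by_contra hlt
      have hle : Nat.find (hex v) ≤ j := by omega
      exact Nat.find_spec (hex v) (layer_antitone P hle hj)
    · intro hj
      have hlt : j < Nat.find (hex v) := by omega
      exact not_not.1 (Nat.find_min (hex v) hlt)

/-- Main local input: the directed `k`-edges at a point of a convex layer have signed degree at
most two. -/
lemma signed_degree_layers {P : Finset (ℝ × ℝ)} (hgp : GeneralPosition P)
    (f : ℝ × ℝ → ℕ) (hdepth : ∀ v ∈ P, ∀ j, v ∈ (peel^[j]) P ↔ j ≤ f v) (k : ℕ)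
    (v : ℝ × ℝ) (hv : v ∈ P) :
    (∑ q ∈ P.erase v,
      ((if (leftOf P v q).card = k then (1:ℤ) else 0) + (if (leftOf P q v).card = k then 1 else 0))
        * (if f v ≤ f q then 1 else -1)) ≤ 2 := by
  classical
  -- `v` is a vertex of its layer
  have hmem : v ∈ (peel^[f v]) P := (hdepth v hv (f v)).2 le_rfl
  have hnot : v ∉ (peel^[f v + 1]) P := fun h => by
    have := (hdepth v hv (f v + 1)).1 h
    omega
  have hvert : IsVertex ((peel^[f v]) P) v := by
    rw [Function.iterate_succ_apply'] at hnot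
    by_contra hc
    apply hnot
    unfold peel
    rw [Finset.mem_filter]
    exact ⟨hmem, hc⟩
  obtain ⟨a, b, hab⟩ := hvert
  -- perturb the functional
  set tr : ℝ × ℝ → ℝ × ℝ := fun q => (q.1 - v.1, q.2 - v.2) with htr
  obtain ⟨α, β, h1, h2⟩ := exists_tieFree
    (((peel^[f v]) P).erase v |>.image tr) ((P.erase v).image tr)
    (by
      intro u hu
      obtain ⟨q, hq, rfl⟩ := Finset.mem_image.1 hu
      have hq' := Finset.mem_erase.1 hq
      intro h0
      apply hq'.1
      have e1 : q.1 - v.1 = 0 := congrArg Prod.fst h0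
      have e2 : q.2 - v.2 = 0 := congrArg Prod.snd h0
      exact Prod.ext (by linarith) (by linarith)) a b
    (by
      intro u hu
      obtain ⟨q, hq, rfl⟩ := Finset.mem_image.1 hu
      have hq' := Finset.mem_erase.1 hq
      have := hab q hq'.2 hq'.1
      simp only [htr]
      nlinarith)
  have hX : ∀ q ∈ P, q ≠ v → xCoord v α β q ≠ 0 := by
    intro q hq hqv
    exact h1 (tr q) (Finset.mem_image_of_mem _ (Finset.mem_erase.2 ⟨hqv, hq⟩))
  have hpos : ∀ q ∈ P, q ≠ v → f v ≤ f q → 0 < xCoord v α β q := by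
    intro q hq hqv hfq
    exact h2 (tr q) (Finset.mem_image_of_mem _
      (Finset.mem_erase.2 ⟨hqv, (hdepth q hq (f v)).2 hfq⟩))
  refine le_trans ?_ (signed_degree_le_two v α β hgp hv hX k)
  apply Finset.sum_le_sum
  intro q hq
  have hq' := Finset.mem_erase.1 hq
  apply mul_le_mul_of_nonneg_left
  · unfold sgnAt
    by_cases hfq : f v ≤ f q
    · simp [hfq, hpos q hq'.2 hq'.1 hfq]
    · rw [if_neg hfq]
      split_ifs <;> omega
  · split_ifs <;> omega

/-- Sum of depths equals sum of sizes of the deeper layers. -/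
lemma sum_depth {P : Finset (ℝ × ℝ)} (c : ℕ) (f : ℝ × ℝ → ℕ) (hf : ∀ v ∈ P, f v < c)
    (hdepth : ∀ v ∈ P, ∀ j, v ∈ (peel^[j]) P ↔ j ≤ f v) :
    ∑ v ∈ P, f v = ∑ j ∈ Finset.Ico 1 c, ((peel^[j]) P).card := by
  have h1 : ∀ v ∈ P, f v = ∑ j ∈ Finset.Ico 1 c, (if j ≤ f v then 1 else 0) := by
    intro v hv
    rw [← Finset.card_filter]
    have : (Finset.Ico 1 c).filter (fun j => j ≤ f v) = Finset.Ico 1 (f v + 1) := by
      ext j
      simp only [Finset.mem_filter, Finset.mem_Ico]
      have := hf v hv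
      omega
    rw [this]
    simp
  rw [Finset.sum_congr rfl h1, Finset.sum_comm]
  apply Finset.sum_congr rfl
  intro j _
  rw [← Finset.card_filter]
  congr 1
  ext v
  simp only [Finset.mem_filter]
  constructor
  · rintro ⟨hv, hj⟩
    exact (hdepth v hv j).2 hj
  · intro hv
    have hvP : v ∈ P := layer_antitone P (Nat.zero_le j) hv
    exact ⟨hvP, (hdepth v hvP j).1 hv⟩

/-- The number of directed `k`-edges of a point set in general position, in terms of its convex
layers. -/
theorem kEdges_card_le {P : Finset (ℝ × ℝ)} (hgp : GeneralPosition P) (c : ℕ)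
    (hc : (peel^[c]) P = ∅) (k : ℕ) :
    (kEdges P k).card + 2 * ∑ j ∈ Finset.Ico 1 c, ((peel^[j]) P).card + P.card
      ≤ 2 * c * P.card := by
  classical
  obtain ⟨f, hf, hdepth⟩ := exists_depth P c hc
  have h1 := weight_count P (fun a b => (leftOf P a b).card = k) f c hf
    (fun v hv => signed_degree_layers hgp f hdepth k v hv)
  have h2 : ∑ v ∈ P, (2 * ((c : ℤ) - f v) - 1)
      = (2 * c * P.card : ℤ) - 2 * ((∑ v ∈ P, f v : ℕ) : ℤ) - P.card := by
    have e : ∀ v ∈ P, 2 * ((c : ℤ) - f v) - 1 = (2 * (c : ℤ) - 1) - 2 * (f v : ℤ) := by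
      intro v _; ring
    rw [Finset.sum_congr rfl e, Finset.sum_sub_distrib, Finset.sum_const, ← Finset.mul_sum,
      nsmul_eq_mul]
    push_cast
    ring
  rw [h2, sum_depth c f hf hdepth] at h1
  have h5 : ((kEdges P k).card : ℤ) + 2 * ((∑ j ∈ Finset.Ico 1 c, ((peel^[j]) P).card : ℕ) : ℤ)
      + (P.card : ℤ) ≤ 2 * (c : ℤ) * (P.card : ℤ) := by
    unfold kEdges
    linarith
  exact_mod_cast h5

end Vale.Agent.Lib.P065
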