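import Vale.Agent.Lib.P065.Defs
import Vale.Agent.Lib.P065.Alternation

/-!
The local lemma at a vertex `v` of a planar point set.
-/

open Finset Filter Topology

namespace Vale.Agent.Lib.P065

/-- Tie-free perturbation of a linear functional. -/
lemma exists_tieFree (G F : Finset (ℝ × ℝ)) (hF : ∀ u ∈ F, u ≠ 0) (α β : ℝ)
    (hG : ∀ u ∈ G, 0 < α * u.1 + β * u.2) :
    ∃ α' β' : ℝ, (∀ u ∈ F, α' * u.1 + β' * u.2 ≠ 0) ∧ (∀ u ∈ G, 0 < α' * u.1 + β' * u.2) := by
  induction F using Finset.induction_on with
  | empty => exact ⟨α, β, by simp, hG⟩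
  | insert u F hu ih =>
    obtain ⟨a, b, h1, h2⟩ := ih (fun w hw => hF w (mem_insert_of_mem hw))
    by_cases h0 : a * u.1 + b * u.2 = 0
    · have hu0 : u ≠ 0 := hF u (mem_insert_self _ _)
      have huu : 0 < u.1 * u.1 + u.2 * u.2 := by
        by_contra hneg
        have h3 : u.1 = 0 := by nlinarith [mul_self_nonneg u.1, mul_self_nonneg u.2]
        have h4 : u.2 = 0 := by nlinarith [mul_self_nonneg u.1, mul_self_nonneg u.2]
        exact hu0 (Prod.ext h3 h4)
      have ev1 : ∀ᶠ ε in 𝓝 (0:ℝ), ∀ w ∈ F, (a + ε * u.1) * w.1 + (b + ε * u.2) * w.2 ≠ 0 :=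
        (Finset.eventually_all F).2 (fun w hw => by
          have hc : ContinuousAt (fun ε : ℝ => (a + ε * u.1) * w.1 + (b + ε * u.2) * w.2) 0 := by
            fun_prop
          exact hc.eventually_ne (by simpa using h1 w hw))
      have ev2 : ∀ᶠ ε in 𝓝 (0:ℝ), ∀ w ∈ G, 0 < (a + ε * u.1) * w.1 + (b + ε * u.2) * w.2 :=
        (Finset.eventually_all G).2 (fun w hw => by
          have hc : ContinuousAt (fun ε : ℝ => (a + ε * u.1) * w.1 + (b + ε * u.2) * w.2) 0 := by
            fun_prop
          exact hc.eventually (lt_mem_nhds (by simpa using h2 w hw)))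
      have ev3 : ∀ᶠ ε in 𝓝[≠] (0:ℝ),
          (∀ w ∈ F, (a + ε * u.1) * w.1 + (b + ε * u.2) * w.2 ≠ 0) ∧
          (∀ w ∈ G, 0 < (a + ε * u.1) * w.1 + (b + ε * u.2) * w.2) ∧ ε ≠ 0 := by
        filter_upwards [nhdsWithin_le_nhds ev1, nhdsWithin_le_nhds ev2, self_mem_nhdsWithin]
          with ε e1 e2 e3
        exact ⟨e1, e2, e3⟩
      obtain ⟨ε, e1, e2, e3⟩ := ev3.exists
      refine ⟨a + ε * u.1, b + ε * u.2, ?_, e2⟩
      intro w hw
      rcases Finset.mem_insert.1 hw with rfl | hw'
      · have : (a + ε * w.1) * w.1 + (b + ε * w.2) * w.2 = ε * (w.1 * w.1 + w.2 * w.2) := by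
          linear_combination h0
        rw [this]
        exact mul_ne_zero e3 huu.ne'
      · exact e1 w hw'
    · refine ⟨a, b, ?_, h2⟩
      intro w hw
      rcases Finset.mem_insert.1 hw with rfl | hw'
      · exact h0
      · exact h1 w hw'

lemma det_self_left (a b : ℝ × ℝ) : det a b a = 0 := by unfold det; ring
lemma det_self_right (a b : ℝ × ℝ) : det a b b = 0 := by unfold det; ring
lemma det_swap (a b r : ℝ × ℝ) : det b a r = - det a b r := by unfold det; ring

/-- Two sides of a line through two points of a set in general position. -/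
lemma left_add_left {P : Finset (ℝ × ℝ)} (hgp : GeneralPosition P) {a b : ℝ × ℝ}
    (ha : a ∈ P) (hb : b ∈ P) (hab : a ≠ b) :
    (leftOf P a b).card + (leftOf P b a).card + 2 = P.card := by
  have h1 : P.filter (fun r => ¬ 0 < det a b r) = insert a (insert b (leftOf P b a)) := by
    ext r
    simp only [leftOf, mem_filter, mem_insert, not_lt]
    constructor
    · rintro ⟨hr, hd⟩
      by_cases hra : r = a
      · exact Or.inl hra
      by_cases hrb : r = b
      · exact Or.inr (Or.inl hrb)
      refine Or.inr (Or.inr ⟨hr, ?_⟩)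
      have hne := hgp a ha b hb r hr hab (Ne.symm hra) (Ne.symm hrb)
      rw [det_swap]
      have : det a b r < 0 := lt_of_le_of_ne hd hne
      linarith
    · rintro (rfl | rfl | ⟨hr, hd⟩)
      · exact ⟨ha, (det_self_left _ _).le⟩
      · exact ⟨hb, (det_self_right _ _).le⟩
      · rw [det_swap] at hd
        exact ⟨hr, by linarith⟩
  have h2 := Finset.card_filter_add_card_filter_not (s := P) (fun r => 0 < det a b r)
  rw [h1] at h2
  have hb' : b ∉ leftOf P b a := by
    simp [leftOf, det_self_left]
  have ha' : a ∉ insert b (leftOf P b a) := by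
    simp only [mem_insert, not_or]
    refine ⟨hab, ?_⟩
    simp [leftOf, det_self_right]
  rw [Finset.card_insert_of_notMem ha', Finset.card_insert_of_notMem hb'] at h2
  unfold leftOf at *
  omega

section LocalSetup

variable (v : ℝ × ℝ) (α β : ℝ)

/-- The perturbed linear functional, centered at `v`. -/
def xCoord (q : ℝ × ℝ) : ℝ := α * (q.1 - v.1) + β * (q.2 - v.2)
/-- The rotated linear functional, centered at `v`. -/
def yCoord (q : ℝ × ℝ) : ℝ := -β * (q.1 - v.1) + α * (q.2 - v.2)
/-- The slope key of `q` as seen from `v`. -/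
noncomputable def slopeKey (q : ℝ × ℝ) : ℝ := yCoord v α β q / xCoord v α β q

lemma det_key {q r : ℝ × ℝ} (hq : xCoord v α β q ≠ 0) (hr : xCoord v α β r ≠ 0) :
    (α * α + β * β) * det v q r
      = xCoord v α β q * xCoord v α β r * (slopeKey v α β r - slopeKey v α β q) := by
  unfold slopeKey
  field_simp
  unfold det xCoord yCoord
  ring

lemma coeff_pos {q : ℝ × ℝ} (hq : xCoord v α β q ≠ 0) : 0 < α * α + β * β := by
  by_contra h
  have h1 : α = 0 := by nlinarith [mul_self_nonneg α, mul_self_nonneg β]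
  have h2 : β = 0 := by nlinarith [mul_self_nonneg α, mul_self_nonneg β]
  apply hq
  simp [xCoord, h1, h2]

/-- The position of `r` relative to the directed line from `v` to `q`, for `X q > 0`. -/
lemma det_pos_iff_of_pos {q r : ℝ × ℝ} (hq : 0 < xCoord v α β q) (hr : xCoord v α β r ≠ 0) :
    0 < det v q r ↔
      (0 < xCoord v α β r ∧ slopeKey v α β q < slopeKey v α β r) ∨
      (¬ 0 < xCoord v α β r ∧ slopeKey v α β r < slopeKey v α β q) := by
  have hk := det_key v α β hq.ne' hr
  have hc := coeff_pos v α β hq.ne'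
  have h1 : 0 < det v q r ↔
      0 < xCoord v α β q * (xCoord v α β r * (slopeKey v α β r - slopeKey v α β q)) := by
    rw [← mul_assoc, ← hk]
    exact (mul_pos_iff_of_pos_left hc).symm
  rw [h1, mul_pos_iff_of_pos_left hq]
  constructor
  · intro h
    rcases mul_pos_iff.1 h with ⟨h2, h3⟩ | ⟨h2, h3⟩
    · exact Or.inl ⟨h2, by linarith⟩
    · exact Or.inr ⟨by linarith, by linarith⟩
  · rintro (⟨h2, h3⟩ | ⟨h2, h3⟩)
    · exact mul_pos h2 (by linarith)
    · have : xCoord v α β r < 0 := lt_of_le_of_ne (not_lt.1 h2) hr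
      exact mul_pos_of_neg_of_neg this (by linarith)

/-- The position of `r` relative to the directed line from `q` to `v`, for `X q < 0`. -/
lemma det_pos_iff_of_neg {q r : ℝ × ℝ} (hq : xCoord v α β q < 0) (hr : xCoord v α β r ≠ 0) :
    0 < det q v r ↔
      (0 < xCoord v α β r ∧ slopeKey v α β q < slopeKey v α β r) ∨
      (¬ 0 < xCoord v α β r ∧ slopeKey v α β r < slopeKey v α β q) := by
  have hk := det_key v α β hq.ne hr
  have hc := coeff_pos v α β hq.ne
  rw [det_swap]
  have h1 : 0 < - det v q r ↔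
      0 < (- xCoord v α β q) * (xCoord v α β r * (slopeKey v α β r - slopeKey v α β q)) := by
    have : (- xCoord v α β q) * (xCoord v α β r * (slopeKey v α β r - slopeKey v α β q))
        = (α * α + β * β) * (- det v q r) := by
      rw [mul_neg, hk]; ring
    rw [this]
    exact (mul_pos_iff_of_pos_left hc).symm
  rw [h1, mul_pos_iff_of_pos_left (by linarith : 0 < - xCoord v α β q)]
  constructor
  · intro h
    rcases mul_pos_iff.1 h with ⟨h2, h3⟩ | ⟨h2, h3⟩
    · exact Or.inl ⟨h2, by linarith⟩
    · exact Or.inr ⟨by linarith, by linarith⟩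
  · rintro (⟨h2, h3⟩ | ⟨h2, h3⟩)
    · exact mul_pos h2 (by linarith)
    · have : xCoord v α β r < 0 := lt_of_le_of_ne (not_lt.1 h2) hr
      exact mul_pos_of_neg_of_neg this (by linarith)

variable {P : Finset (ℝ × ℝ)}

/-- The level function at `v` relative to a tie-free functional. -/
noncomputable def levelAt (P : Finset (ℝ × ℝ)) (q : ℝ × ℝ) : ℕ :=
  altL (P.erase v) (slopeKey v α β) (fun r => 0 < xCoord v α β r) q

lemma slopeKey_injOn (hgp : GeneralPosition P) (hv : v ∈ P)
    (hX : ∀ q ∈ P, q ≠ v → xCoord v α β q ≠ 0) :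
    Set.InjOn (slopeKey v α β) (P.erase v) := by
  intro q hq r hr hqr
  by_contra hne
  simp only [Finset.coe_erase, Set.mem_sdiff, Finset.mem_coe, Set.mem_singleton_iff] at hq hr
  have hk := det_key v α β (hX q hq.1 hq.2) (hX r hr.1 hr.2)
  rw [hqr, sub_self, mul_zero] at hk
  have hc := coeff_pos v α β (hX q hq.1 hq.2)
  have h0 : det v q r = 0 := by
    rcases mul_eq_zero.1 hk with h | h
    · exact absurd h hc.ne'
    · exact h
  exact hgp v hv q hq.1 r hr.1 (Ne.symm hq.2) (Ne.symm hr.2) hne h0

lemma card_left_of_pos {q : ℝ × ℝ} (hX : ∀ q ∈ P, q ≠ v → xCoord v α β q ≠ 0)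
    (hq : 0 < xCoord v α β q) : (leftOf P v q).card = levelAt v α β P q := by
  unfold levelAt altL
  rw [← Finset.card_union_of_disjoint]
  · congr 1
    ext r
    simp only [leftOf, mem_filter, mem_union, mem_erase]
    constructor
    · rintro ⟨hr, hd⟩
      have hrv : r ≠ v := by
        rintro rfl
        rw [det_self_left] at hd
        exact lt_irrefl _ hd
      have := (det_pos_iff_of_pos v α β hq (hX r hr hrv)).1 hd
      rcases this with h | h
      · exact Or.inl ⟨⟨hrv, hr⟩, h⟩
      · exact Or.inr ⟨⟨hrv, hr⟩, h⟩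
    · rintro (⟨⟨hrv, hr⟩, h⟩ | ⟨⟨hrv, hr⟩, h⟩)
      · exact ⟨hr, (det_pos_iff_of_pos v α β hq (hX r hr hrv)).2 (Or.inl h)⟩
      · exact ⟨hr, (det_pos_iff_of_pos v α β hq (hX r hr hrv)).2 (Or.inr h)⟩
  · rw [Finset.disjoint_left]
    intro r h1 h2
    exact (mem_filter.1 h2).2.1 (mem_filter.1 h1).2.1

lemma card_left_of_neg {q : ℝ × ℝ} (hX : ∀ q ∈ P, q ≠ v → xCoord v α β q ≠ 0)
    (hq : xCoord v α β q < 0) : (leftOf P q v).card = levelAt v α β P q := by
  unfold levelAt altL
  rw [← Finset.card_union_of_disjoint]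
  · congr 1
    ext r
    simp only [leftOf, mem_filter, mem_union, mem_erase]
    constructor
    · rintro ⟨hr, hd⟩
      have hrv : r ≠ v := by
        rintro rfl
        rw [det_self_right] at hd
        exact lt_irrefl _ hd
      have := (det_pos_iff_of_neg v α β hq (hX r hr hrv)).1 hd
      rcases this with h | h
      · exact Or.inl ⟨⟨hrv, hr⟩, h⟩
      · exact Or.inr ⟨⟨hrv, hr⟩, h⟩
    · rintro (⟨⟨hrv, hr⟩, h⟩ | ⟨⟨hrv, hr⟩, h⟩)
      · exact ⟨hr, (det_pos_iff_of_neg v α β hq (hX r hr hrv)).2 (Or.inl h)⟩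
      · exact ⟨hr, (det_pos_iff_of_neg v α β hq (hX r hr hrv)).2 (Or.inr h)⟩
  · rw [Finset.disjoint_left]
    intro r h1 h2
    exact (mem_filter.1 h2).2.1 (mem_filter.1 h1).2.1

/-- The sign of a point relative to the tie-free functional. -/
noncomputable def sgnAt (q : ℝ × ℝ) : ℤ := if 0 < xCoord v α β q then 1 else -1

/-- The exact local formula for the level function. -/
lemma level_sum (hgp : GeneralPosition P) (hv : v ∈ P)
    (hX : ∀ q ∈ P, q ≠ v → xCoord v α β q ≠ 0) (m : ℕ) :
    (∑ q ∈ P.erase v, sgnAt v α β q * (if levelAt v α β P q = m then 1 else 0))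
      = (if m < ((P.erase v).filter (fun q => 0 < xCoord v α β q)).card then 1 else 0)
        - (if m < ((P.erase v).filter (fun q => ¬ 0 < xCoord v α β q)).card then 1 else 0) :=
  alternation_sum (slopeKey v α β) (fun r => 0 < xCoord v α β r) (P.erase v)
    (slopeKey_injOn v α β hgp hv hX) m

/-- Splitting the signed degree of `v` according to the level function. -/
lemma signed_degree_split (hgp : GeneralPosition P) (hv : v ∈ P)
    (hX : ∀ q ∈ P, q ≠ v → xCoord v α β q ≠ 0) (k : ℕ) :
    (∑ q ∈ P.erase v,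
      ((if (leftOf P v q).card = k then (1:ℤ) else 0) + (if (leftOf P q v).card = k then 1 else 0))
        * sgnAt v α β q)
      = (∑ q ∈ P.erase v, sgnAt v α β q * (if levelAt v α β P q = k then 1 else 0))
        + ∑ q ∈ P.erase v, sgnAt v α β q
          * (if levelAt v α β P q + k + 2 = P.card then 1 else 0) := by
  have key : ∀ q ∈ P.erase v,
      ((if (leftOf P v q).card = k then (1:ℤ) else 0) + (if (leftOf P q v).card = k then 1 else 0))
        * sgnAt v α β q
      = sgnAt v α β q * (if levelAt v α β P q = k then 1 else 0)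
        + sgnAt v α β q * (if levelAt v α β P q + k + 2 = P.card then 1 else 0) := by
    intro q hq
    have hq' := Finset.mem_erase.1 hq
    have hs := left_add_left hgp hv hq'.2 (Ne.symm hq'.1)
    by_cases hpos : 0 < xCoord v α β q
    · have h1 := card_left_of_pos v α β hX hpos
      have e1 : (leftOf P v q).card = k ↔ levelAt v α β P q = k := by rw [h1]
      have e2 : (leftOf P q v).card = k ↔ levelAt v α β P q + k + 2 = P.card := by omega
      simp only [e1, e2]
      ring
    · have hneg : xCoord v α β q < 0 := lt_of_le_of_ne (not_lt.1 hpos) (hX q hq'.2 hq'.1)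
      have h1 := card_left_of_neg v α β hX hneg
      have e1 : (leftOf P q v).card = k ↔ levelAt v α β P q = k := by rw [h1]
      have e2 : (leftOf P v q).card = k ↔ levelAt v α β P q + k + 2 = P.card := by omega
      simp only [e1, e2]
      ring
  rw [Finset.sum_congr rfl key, Finset.sum_add_distrib]

/-- The second part of the signed degree, via the complementary level. -/
lemma level_sum_compl (hgp : GeneralPosition P) (hv : v ∈ P)
    (hX : ∀ q ∈ P, q ≠ v → xCoord v α β q ≠ 0) (k : ℕ) (hk : k + 2 ≤ P.card) :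
    (∑ q ∈ P.erase v, sgnAt v α β q * (if levelAt v α β P q + k + 2 = P.card then 1 else 0))
      = (if P.card - k - 2 < ((P.erase v).filter (fun q => 0 < xCoord v α β q)).card then 1 else 0)
        - (if P.card - k - 2 < ((P.erase v).filter (fun q => ¬ 0 < xCoord v α β q)).card
            then 1 else 0) := by
  have e : ∀ q ∈ P.erase v, sgnAt v α β q
      * (if levelAt v α β P q + k + 2 = P.card then 1 else 0)
      = sgnAt v α β q * (if levelAt v α β P q = P.card - k - 2 then 1 else 0) := by
    intro q _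
    have : levelAt v α β P q + k + 2 = P.card ↔ levelAt v α β P q = P.card - k - 2 := by omega
    simp only [this]
  rw [Finset.sum_congr rfl e, level_sum v α β hgp hv hX]

lemma level_sum_compl_zero (k : ℕ) (hk : ¬ k + 2 ≤ P.card) :
    (∑ q ∈ P.erase v, sgnAt v α β q * (if levelAt v α β P q + k + 2 = P.card then 1 else 0))
      = 0 := by
  apply Finset.sum_eq_zero
  intro q _
  have : ¬ (levelAt v α β P q + k + 2 = P.card) := by omega
  simp [this]

/-- The signed degree of `v` in the graph of directed `k`-edges is at most two. -/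
theorem signed_degree_le_two (hgp : GeneralPosition P) (hv : v ∈ P)
    (hX : ∀ q ∈ P, q ≠ v → xCoord v α β q ≠ 0) (k : ℕ) :
    (∑ q ∈ P.erase v,
      ((if (leftOf P v q).card = k then (1:ℤ) else 0) + (if (leftOf P q v).card = k then 1 else 0))
        * sgnAt v α β q) ≤ 2 := by
  rw [signed_degree_split v α β hgp hv hX k, level_sum v α β hgp hv hX k]
  have h2 : (∑ q ∈ P.erase v, sgnAt v α β q
      * (if levelAt v α β P q + k + 2 = P.card then 1 else 0)) ≤ 1 := by
    by_cases hk : k + 2 ≤ P.card
    · rw [level_sum_compl v α β hgp hv hX k hk]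
      split_ifs <;> omega
    · rw [level_sum_compl_zero v α β k hk]
      omega
  have h3 : ((if k < ((P.erase v).filter (fun q => 0 < xCoord v α β q)).card then (1:ℤ) else 0)
        - (if k < ((P.erase v).filter (fun q => ¬ 0 < xCoord v α β q)).card then 1 else 0)) ≤ 1 := by
    split_ifs <;> omega
  linarith

/-- If more than `k` points lie on the negative side of `v`, the signed degree is at most zero. -/
theorem signed_degree_le_zero (hgp : GeneralPosition P) (hv : v ∈ P)
    (hX : ∀ q ∈ P, q ≠ v → xCoord v α β q ≠ 0) (k : ℕ)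
    (hneg : k < ((P.erase v).filter (fun q => ¬ 0 < xCoord v α β q)).card) :
    (∑ q ∈ P.erase v,
      ((if (leftOf P v q).card = k then (1:ℤ) else 0) + (if (leftOf P q v).card = k then 1 else 0))
        * sgnAt v α β q) ≤ 0 := by
  rw [signed_degree_split v α β hgp hv hX k, level_sum v α β hgp hv hX k]
  have hcard := Finset.card_filter_add_card_filter_not (s := P.erase v)
    (fun q => 0 < xCoord v α β q)
  rw [Finset.card_erase_of_mem hv] at hcard
  have hpos : 0 < P.card := Finset.card_pos.2 ⟨v, hv⟩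
  have h2 : (∑ q ∈ P.erase v, sgnAt v α β q
      * (if levelAt v α β P q + k + 2 = P.card then 1 else 0)) ≤ 0 := by
    by_cases hk : k + 2 ≤ P.card
    · rw [level_sum_compl v α β hgp hv hX k hk]
      have : ¬ (P.card - k - 2 < ((P.erase v).filter (fun q => 0 < xCoord v α β q)).card) := by
        omega
      rw [if_neg this]
      split_ifs <;> omega
    · rw [level_sum_compl_zero v α β k hk]
  have h3 : ((if k < ((P.erase v).filter (fun q => 0 < xCoord v α β q)).card then (1:ℤ) else 0)
        - (if k < ((P.erase v).filter (fun q => ¬ 0 < xCoord v α β q)).card then 1 else 0)) ≤ 0 := by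
    rw [if_pos hneg]
    split_ifs <;> omega
  linarith

end LocalSetup

end Vale.Agent.Lib.P065
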